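import Mathlib

/-!
# P207, relative pinching: growth with a variable rate (pure ODE part)
-/

open MeasureTheory Filter Topology Set

noncomputable section

namespace Vale.Agent.P207.Q.Rel

/-- `y' ≤ -a y + b` -/
theorem ode_decay {y y' : ℝ → ℝ} {a b : ℝ} (ha : 0 < a) (hb : 0 ≤ b)
    (hy : ∀ s, HasDerivAt y (y' s) s) (h : ∀ s, y' s ≤ -a * y s + b) {s : ℝ} (hs : 0 ≤ s)
    (hy0 : ∀ s, 0 ≤ y s) : y s ≤ y 0 + b / a := by
  have hd : ∀ s, HasDerivAt (fun s => (y s - b / a) * Real.exp (a * s))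
      ((y' s + a * (y s - b / a)) * Real.exp (a * s)) s := by
    intro s
    have e1 : HasDerivAt (fun s => a * s) a s := by simpa using (hasDerivAt_id s).const_mul a
    refine (((hy s).sub_const (b / a)).fun_mul e1.exp).congr_deriv ?_
    ring
  have hanti : Antitone fun s => (y s - b / a) * Real.exp (a * s) := by
    refine antitone_of_deriv_nonpos (fun s => (hd s).differentiableAt) fun s => ?_
    rw [(hd s).deriv]
    refine mul_nonpos_of_nonpos_of_nonneg ?_ (Real.exp_pos _).le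
    have h1 := h s
    have h2 : a * (b / a) = b := by field_simp
    nlinarith
  have key := hanti hs
  simp only [mul_zero, Real.exp_zero, mul_one] at key
  have h1 : 1 ≤ Real.exp (a * s) := Real.one_le_exp (by positivity)
  have h3 : 0 ≤ b / a := by positivity
  have h4 := hy0 0
  by_contra hcon
  push Not at hcon
  have h5 : y 0 < y s - b / a := by linarith
  have h6 : (y s - b / a) * 1 ≤ (y s - b / a) * Real.exp (a * s) :=
    mul_le_mul_of_nonneg_left h1 (by linarith)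
  linarith

/-- the growth of `|v|²`, `v' = U v - d` -/
theorem ode_growth {y y' E e : ℝ → ℝ} {lam D : ℝ} (hlam : 0 < lam) (hD : 0 ≤ D)
    (hy : ∀ s, HasDerivAt y (y' s) s) (hy0 : ∀ s, 0 ≤ y s)
    (hE : ∀ s, HasDerivAt E (e s) s) (hE0 : E 0 = 0) (he : ∀ s, lam ≤ e s)
    (h : ∀ s, 0 ≤ s → y' s ≤ 2 * e s * y s + 2 * D * Real.sqrt (y s)) {s : ℝ} (hs : 0 ≤ s) :
    y s ≤ (1 + y 0) * Real.exp (D / lam) * Real.exp (2 * E s) := by
  have hEs : ∀ s, 0 ≤ s → lam * s ≤ E s := by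
    intro s hs
    have hm : Monotone fun s => E s - lam * s := by
      refine monotone_of_deriv_nonneg (fun s => ?_) fun s => ?_
      · exact ((hE s).differentiableAt).sub (differentiableAt_id.const_mul lam)
      · have e1 : HasDerivAt (fun s => lam * s) lam s := by
          simpa using (hasDerivAt_id s).const_mul lam
        rw [((hE s).fun_sub e1).deriv]
        linarith [he s]
    have := hm hs
    simp only [hE0, mul_zero, sub_zero] at this
    linarith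
  set Z : ℝ → ℝ := fun s => (1 + y s * Real.exp (-(2 * E s))) *
    Real.exp (D / lam * Real.exp (-lam * s)) with hZ
  have hZd : ∀ s, HasDerivAt Z (((y' s - 2 * e s * y s) * Real.exp (-(2 * E s)) -
      D * Real.exp (-lam * s) * (1 + y s * Real.exp (-(2 * E s)))) *
        Real.exp (D / lam * Real.exp (-lam * s))) s := by
    intro s
    have e1 : HasDerivAt (fun s => -(2 * E s)) (-(2 * e s)) s := ((hE s).const_mul 2).fun_neg
    have e2 : HasDerivAt (fun s => -lam * s) (-lam) s := by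
      simpa using (hasDerivAt_id s).const_mul (-lam)
    have e3 := (((hy s).fun_mul e1.exp).const_add 1).fun_mul ((e2.exp.const_mul (D / lam)).exp)
    refine e3.congr_deriv ?_
    field_simp
    ring
  have hanti : AntitoneOn Z (Ici 0) := by
    refine antitoneOn_of_deriv_nonpos (convex_Ici 0)
      (fun s _ => (hZd s).continuousAt.continuousWithinAt)
      (fun s _ => (hZd s).differentiableAt.differentiableWithinAt) fun s hs => ?_
    rw [interior_Ici] at hs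
    have hs0 : 0 ≤ s := le_of_lt hs
    rw [(hZd s).deriv]
    refine mul_nonpos_of_nonpos_of_nonneg ?_ (Real.exp_pos _).le
    set x := Real.exp (-(E s)) with hx
    have hx0 : 0 < x := Real.exp_pos _
    have hxx : Real.exp (-(2 * E s)) = x * x := by
      rw [hx, ← Real.exp_add]; ring_nf
    have hxl : x ≤ Real.exp (-lam * s) := Real.exp_le_exp.2 (by linarith [hEs s hs0])
    rw [hxx]
    set r := Real.sqrt (y s) with hr
    have hr0 : 0 ≤ r := Real.sqrt_nonneg _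
    have hrr : r * r = y s := Real.mul_self_sqrt (hy0 s)
    have h1 : (y' s - 2 * e s * y s) * (x * x) ≤ 2 * D * r * (x * x) :=
      mul_le_mul_of_nonneg_right (by linarith [h s hs0]) (by positivity)
    have h2 : 2 * D * r * (x * x) ≤ D * x * (1 + y s * (x * x)) := by
      rw [← hrr]
      have : 0 ≤ D * x * (1 - r * x) ^ 2 := by positivity
      nlinarith
    have h3 : D * x * (1 + y s * (x * x)) ≤ D * Real.exp (-lam * s) * (1 + y s * (x * x)) := by
      have := hy0 s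
      gcongr
    linarith
  have key := hanti (mem_Ici.2 le_rfl) (mem_Ici.2 hs) hs
  simp only [hZ, hE0, mul_zero, neg_zero, Real.exp_zero, mul_one] at key
  have p1 : 1 ≤ Real.exp (D / lam * Real.exp (-lam * s)) :=
    Real.one_le_exp (by positivity)
  have h4 := hy0 s
  have p2 : y s * Real.exp (-(2 * E s)) ≤ (1 + y 0) * Real.exp (D / lam) := by
    refine le_trans ?_ key
    have p3 : 0 ≤ 1 + y s * Real.exp (-(2 * E s)) := by positivity
    have := mul_le_mul_of_nonneg_left p1 p3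
    linarith
  have p4 := mul_le_mul_of_nonneg_right p2 (Real.exp_pos (2 * E s)).le
  have p5 : y s * Real.exp (-(2 * E s)) * Real.exp (2 * E s) = y s := by
    rw [mul_assoc, ← Real.exp_add]; simp
  rwa [p5] at p4

/-- decay of `d = h + U v` -/
theorem d_bound {d0 d1 c0 c1 U00 U01 U11 : ℝ → ℝ} {lam C D0 : ℝ} (hlam : 0 < lam)
    (h0 : ∀ s, HasDerivAt d0 (-(U00 s * d0 s + U01 s * d1 s) - c0 s) s)
    (h1 : ∀ s, HasDerivAt d1 (-(U01 s * d0 s + U11 s * d1 s) - c1 s) s)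
    (hlo : ∀ s x y, lam * (x ^ 2 + y ^ 2) ≤
      U00 s * x ^ 2 + 2 * U01 s * (x * y) + U11 s * y ^ 2)
    (hc : ∀ s, c0 s ^ 2 + c1 s ^ 2 ≤ C ^ 2) (hD : d0 0 ^ 2 + d1 0 ^ 2 ≤ D0)
    {s : ℝ} (hs : 0 ≤ s) :
    d0 s ^ 2 + d1 s ^ 2 ≤ D0 + C ^ 2 / lam ^ 2 := by
  have k1 := ode_decay (y := fun s => d0 s ^ 2 + d1 s ^ 2) (a := lam) (b := C ^ 2 / lam)
      (y' := fun s => 2 * d0 s * (-(U00 s * d0 s + U01 s * d1 s) - c0 s) +
        2 * d1 s * (-(U01 s * d0 s + U11 s * d1 s) - c1 s)) hlam (by positivity)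
      (fun s => by
        have := ((h0 s).fun_pow 2).fun_add ((h1 s).fun_pow 2)
        refine this.congr_deriv ?_
        push_cast
        ring) (fun s => by
        have h1 := hlo s (d0 s) (d1 s)
        have h2 := hc s
        have h3 : 0 ≤ lam⁻¹ * ((lam * d0 s + c0 s) ^ 2 + (lam * d1 s + c1 s) ^ 2) := by
          positivity
        have h4 : lam⁻¹ * ((lam * d0 s + c0 s) ^ 2 + (lam * d1 s + c1 s) ^ 2) =
          lam * (d0 s ^ 2 + d1 s ^ 2) + 2 * (d0 s * c0 s + d1 s * c1 s) +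
            (c0 s ^ 2 + c1 s ^ 2) / lam := by
          field_simp
          ring
        have h5 : (c0 s ^ 2 + c1 s ^ 2) / lam ≤ C ^ 2 / lam := by gcongr
        rw [h4] at h3
        linarith) hs (fun s => by positivity)
  have k4 : C ^ 2 / lam / lam = C ^ 2 / lam ^ 2 := by rw [div_div, sq lam]
  rw [k4] at k1
  linarith

/-- growth of `v` -/
theorem v_bound {v0 v1 d0 d1 U00 U01 U11 E e : ℝ → ℝ} {lam D V0 : ℝ} (hlam : 0 < lam) (hD : 0 ≤ D)
    (h0 : ∀ s, HasDerivAt v0 (U00 s * v0 s + U01 s * v1 s - d0 s) s)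
    (h1 : ∀ s, HasDerivAt v1 (U01 s * v0 s + U11 s * v1 s - d1 s) s)
    (hup : ∀ s x y, U00 s * x ^ 2 + 2 * U01 s * (x * y) + U11 s * y ^ 2 ≤ e s * (x ^ 2 + y ^ 2))
    (hE : ∀ s, HasDerivAt E (e s) s) (hE0 : E 0 = 0) (he : ∀ s, lam ≤ e s)
    (hd : ∀ s, 0 ≤ s → d0 s ^ 2 + d1 s ^ 2 ≤ D ^ 2) (hV : v0 0 ^ 2 + v1 0 ^ 2 ≤ V0)
    {s : ℝ} (hs : 0 ≤ s) :
    v0 s ^ 2 + v1 s ^ 2 ≤ (1 + V0) * Real.exp (D / lam) * Real.exp (2 * E s) := by
  have k1 := ode_growth (y := fun s => v0 s ^ 2 + v1 s ^ 2) (E := E) (e := e)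
      (y' := fun s => 2 * v0 s * (U00 s * v0 s + U01 s * v1 s - d0 s) +
        2 * v1 s * (U01 s * v0 s + U11 s * v1 s - d1 s)) hlam hD
      (fun s => by
        have := ((h0 s).fun_pow 2).fun_add ((h1 s).fun_pow 2)
        refine this.congr_deriv ?_
        push_cast
        ring) (fun s => by positivity) hE hE0 he (fun s hs => by
        have h1 := hup s (v0 s) (v1 s)
        have h2 := hd s hs
        set r := Real.sqrt (v0 s ^ 2 + v1 s ^ 2) with hr
        have hr0 : 0 ≤ r := Real.sqrt_nonneg _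
        have hrr : r ^ 2 = v0 s ^ 2 + v1 s ^ 2 := Real.sq_sqrt (by positivity)
        have h3 : -(d0 s * v0 s + d1 s * v1 s) ≤ D * r := by
          have h4 : (d0 s * v0 s + d1 s * v1 s) ^ 2 ≤ (D * r) ^ 2 := by
            rw [mul_pow, hrr]
            have h5 : (d0 s * v0 s + d1 s * v1 s) ^ 2 ≤
                (d0 s ^ 2 + d1 s ^ 2) * (v0 s ^ 2 + v1 s ^ 2) := by
              have : 0 ≤ (d0 s * v1 s - d1 s * v0 s) ^ 2 := sq_nonneg _
              linarith
            exact h5.trans (mul_le_mul_of_nonneg_right h2 (by positivity))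
          have h6 := abs_le_of_sq_le_sq h4 (by positivity)
          linarith [(abs_le.1 h6).1]
        linarith) hs
  refine k1.trans ?_
  gcongr

/-- **Growth with a variable rate.** `v' = -h`, `h' = -(K v + c)`, `U' = K - U²`,
`lam ≤ U ≤ e`. -/
theorem growth_var {v h c : Fin 2 → ℝ → ℝ} {K U : Fin 2 → Fin 2 → ℝ → ℝ} {E e : ℝ → ℝ}
    {lam C M : ℝ} (hlam : 0 < lam) (hC : 0 ≤ C) (hM : 0 ≤ M)
    (hv : ∀ i s, HasDerivAt (v i) (- h i s) s)
    (hh : ∀ i s, HasDerivAt (h i) (-(∑ j, K i j s * v j s + c i s)) s)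
    (hU : ∀ i j s, HasDerivAt (U i j) (K i j s - ∑ k, U i k s * U k j s) s)
    (hsym : ∀ s, U 1 0 s = U 0 1 s) (hKsym : ∀ s, K 1 0 s = K 0 1 s)
    (hlo : ∀ s x y, lam * (x ^ 2 + y ^ 2) ≤
      U 0 0 s * x ^ 2 + 2 * U 0 1 s * (x * y) + U 1 1 s * y ^ 2)
    (hup : ∀ s x y, U 0 0 s * x ^ 2 + 2 * U 0 1 s * (x * y) + U 1 1 s * y ^ 2 ≤
      e s * (x ^ 2 + y ^ 2))
    (hE : ∀ s, HasDerivAt E (e s) s) (hE0 : E 0 = 0)
    (hc : ∀ s, c 0 s ^ 2 + c 1 s ^ 2 ≤ C ^ 2) (hMU : ∀ i j s, |U i j s| ≤ M)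
    {V₀ H₀ : ℝ} (hV : ∀ i, |v i 0| ≤ V₀) (hH : ∀ i, |h i 0| ≤ H₀) :
    ∃ B : ℝ, 0 ≤ B ∧ B = Real.sqrt ((1 + 2 * V₀ ^ 2) *
        Real.exp (Real.sqrt (2 * (H₀ + 2 * M * V₀) ^ 2 + C ^ 2 / lam ^ 2) / lam)) *
          (1 + 2 * M) + Real.sqrt (2 * (H₀ + 2 * M * V₀) ^ 2 + C ^ 2 / lam ^ 2) ∧
      ∀ s, 0 ≤ s → ∀ i, |v i s| ≤ B * Real.exp (E s) ∧ |h i s| ≤ B * Real.exp (E s) := by
  have hV0 : 0 ≤ V₀ := (abs_nonneg _).trans (hV 0)
  have hH0 : 0 ≤ H₀ := (abs_nonneg _).trans (hH 0)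
  have he : ∀ s, lam ≤ e s := fun s => by
    have h1 := hlo s 1 0
    have h2 := hup s 1 0
    nlinarith
  -- `d = h + U v`
  set d : Fin 2 → ℝ → ℝ := fun i s => h i s + (U i 0 s * v 0 s + U i 1 s * v 1 s) with hd
  have hd0 : ∀ s, HasDerivAt (d 0) (-(U 0 0 s * d 0 s + U 0 1 s * d 1 s) - c 0 s) s := by
    intro s
    have a1 := (hh 0 s).fun_add (((hU 0 0 s).fun_mul (hv 0 s)).fun_add
      ((hU 0 1 s).fun_mul (hv 1 s)))
    refine a1.congr_deriv ?_
    simp only [hd, Fin.sum_univ_two]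
    ring
  have hd1 : ∀ s, HasDerivAt (d 1) (-(U 0 1 s * d 0 s + U 1 1 s * d 1 s) - c 1 s) s := by
    intro s
    have a1 := (hh 1 s).fun_add (((hU 1 0 s).fun_mul (hv 0 s)).fun_add
      ((hU 1 1 s).fun_mul (hv 1 s)))
    refine a1.congr_deriv ?_
    simp only [hd, Fin.sum_univ_two, hsym]
    ring
  set D : ℝ := Real.sqrt (2 * (H₀ + 2 * M * V₀) ^ 2 + C ^ 2 / lam ^ 2) with hD
  have hD0 : 0 ≤ D := Real.sqrt_nonneg _
  have hD2 : D ^ 2 = 2 * (H₀ + 2 * M * V₀) ^ 2 + C ^ 2 / lam ^ 2 :=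
    Real.sq_sqrt (by positivity)
  have k2 : ∀ i, |d i 0| ≤ H₀ + 2 * M * V₀ := by
    intro i
    simp only [hd]
    have b1 := abs_add_le (h i 0) (U i 0 0 * v 0 0 + U i 1 0 * v 1 0)
    have b2 := abs_add_le (U i 0 0 * v 0 0) (U i 1 0 * v 1 0)
    rw [abs_mul, abs_mul] at b2
    have b3 : |U i 0 0| * |v 0 0| ≤ M * V₀ :=
      mul_le_mul (hMU _ _ _) (hV 0) (abs_nonneg _) hM
    have b4 : |U i 1 0| * |v 1 0| ≤ M * V₀ :=
      mul_le_mul (hMU _ _ _) (hV 1) (abs_nonneg _) hM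
    linarith [hH i]
  have k3 : ∀ i, d i 0 ^ 2 ≤ (H₀ + 2 * M * V₀) ^ 2 := fun i => by
    rw [← sq_abs]
    exact pow_le_pow_left₀ (abs_nonneg _) (k2 i) 2
  have hdb : ∀ s, 0 ≤ s → d 0 s ^ 2 + d 1 s ^ 2 ≤ D ^ 2 := by
    intro s hs
    rw [hD2]
    exact d_bound hlam hd0 hd1 hlo hc (by linarith [k3 0, k3 1]) hs
  have k5 : ∀ i, v i 0 ^ 2 ≤ V₀ ^ 2 := fun i => by
    rw [← sq_abs]
    exact pow_le_pow_left₀ (abs_nonneg _) (hV i) 2
  have hyb : ∀ s, 0 ≤ s → v 0 s ^ 2 + v 1 s ^ 2 ≤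
      (1 + 2 * V₀ ^ 2) * Real.exp (D / lam) * Real.exp (2 * E s) := by
    intro s hs
    refine v_bound (d0 := d 0) (d1 := d 1) hlam hD0 (fun s => (hv 0 s).congr_deriv ?_)
      (fun s => (hv 1 s).congr_deriv ?_) hup hE hE0 he hdb (by linarith [k5 0, k5 1]) hs
    · simp only [hd]; ring
    · simp only [hd, hsym]; ring
  set A : ℝ := Real.sqrt ((1 + 2 * V₀ ^ 2) * Real.exp (D / lam)) with hA
  have hA0 : 0 ≤ A := Real.sqrt_nonneg _
  have hE1 : ∀ s, 0 ≤ s → 1 ≤ Real.exp (E s) := by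
    intro s hs
    refine Real.one_le_exp ?_
    have hm : Monotone E := monotone_of_deriv_nonneg (fun s => (hE s).differentiableAt)
      fun s => by rw [(hE s).deriv]; linarith [he s]
    have := hm hs
    rwa [hE0] at this
  have hvb : ∀ s, 0 ≤ s → ∀ i, |v i s| ≤ A * Real.exp (E s) := by
    intro s hs i
    have h1 := hyb s hs
    have h2 : v i s ^ 2 ≤ v 0 s ^ 2 + v 1 s ^ 2 := by
      fin_cases i
      · simp only [Fin.zero_eta]; linarith [sq_nonneg (v 1 s)]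
      · simp only [Fin.mk_one]; linarith [sq_nonneg (v 0 s)]
    have h3 : (A * Real.exp (E s)) ^ 2 =
        (1 + 2 * V₀ ^ 2) * Real.exp (D / lam) * Real.exp (2 * E s) := by
      rw [mul_pow, hA, Real.sq_sqrt (by positivity), ← Real.exp_nat_mul]
      push_cast
      ring
    have h4 : v i s ^ 2 ≤ (A * Real.exp (E s)) ^ 2 := by rw [h3]; linarith
    exact abs_le_of_sq_le_sq h4 (by positivity)
  refine ⟨A * (1 + 2 * M) + D, by positivity, rfl, fun s hs i => ⟨?_, ?_⟩⟩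
  · refine (hvb s hs i).trans (mul_le_mul_of_nonneg_right ?_ (Real.exp_pos _).le)
    nlinarith [mul_nonneg hA0 hM]
  · have h1 : h i s = d i s - (U i 0 s * v 0 s + U i 1 s * v 1 s) := by simp only [hd]; ring
    have h2 : |d i s| ≤ D := by
      have h3 := hdb s hs
      have h4 : d i s ^ 2 ≤ D ^ 2 := by
        fin_cases i
        · simp only [Fin.zero_eta]; linarith [sq_nonneg (d 1 s)]
        · simp only [Fin.mk_one]; linarith [sq_nonneg (d 0 s)]
      exact abs_le_of_sq_le_sq h4 hD0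
    have b2 := abs_add_le (U i 0 s * v 0 s) (U i 1 s * v 1 s)
    rw [abs_mul, abs_mul] at b2
    have b3 : |U i 0 s| * |v 0 s| ≤ M * (A * Real.exp (E s)) :=
      mul_le_mul (hMU _ _ _) (hvb s hs 0) (abs_nonneg _) hM
    have b4 : |U i 1 s| * |v 1 s| ≤ M * (A * Real.exp (E s)) :=
      mul_le_mul (hMU _ _ _) (hvb s hs 1) (abs_nonneg _) hM
    have b5 : |d i s - (U i 0 s * v 0 s + U i 1 s * v 1 s)| ≤
        |d i s| + |U i 0 s * v 0 s + U i 1 s * v 1 s| := abs_sub _ _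
    rw [h1]
    have h5 := hE1 s hs
    have h6 : D * 1 ≤ D * Real.exp (E s) := mul_le_mul_of_nonneg_left h5 hD0
    nlinarith [mul_nonneg hA0 (Real.exp_pos (E s)).le]

end Vale.Agent.P207.Q.Rel
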