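import Mathlib.Tactic

/-!
# P207: the pointwise inequality for the multiplier, class `κ₊ < (14/5) κ₋ + (6/5) κ₀`

`30 λ = 10 t + 17 ν - 9 ν²/t - 35 q/t - 11 ν q/t² - 18 q²/t³ - 108 q³/t⁵`, `q = d²`.
All the polynomials have nonnegative coefficients on two triangular cones in `(t, d, ν)`.
-/

noncomputable section

namespace Vale.Agent.P207.Q.Rel

/-- `30 t⁵ λ` -/
def Gn (t d n : ℝ) : ℝ :=
  10 * t ^ 6 + 17 * n * t ^ 5 - 9 * n ^ 2 * t ^ 4 - 35 * d ^ 2 * t ^ 4 - 11 * d ^ 2 * n * t ^ 3 -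
    18 * d ^ 4 * t ^ 2 - 108 * d ^ 6

/-- `30 t⁶ λ_t` -/
def An (t d n : ℝ) : ℝ :=
  10 * t ^ 6 + 9 * n ^ 2 * t ^ 4 + 35 * d ^ 2 * t ^ 4 + 22 * d ^ 2 * n * t ^ 3 +
    54 * d ^ 4 * t ^ 2 + 540 * d ^ 6

/-- `-30 t⁶ λ_d / d` -/
def Fn (t d n : ℝ) : ℝ := 70 * t ^ 5 + 22 * n * t ^ 4 + 72 * d ^ 2 * t ^ 3 + 648 * d ^ 4 * t

/-- the rest -/
def Rn (t d n : ℝ) : ℝ :=
  -30 * (t ^ 2 + d ^ 2) * t ^ 4 * An t d n + 60 * d ^ 2 * t ^ 5 * Fn t d n +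
    60 * t ^ 6 * Gn t d n - 3 * Gn t d n ^ 2 - 2700 * d ^ 2 * t ^ 10

/-- the value at the vertex `(2, 0)` -/
def P3n (t d n : ℝ) : ℝ := Rn t d n + 120 * n ^ 2 * t ^ 4 * An t d n

/-- the value at the vertex `(5, 3)` -/
def P4n (t d n : ℝ) : ℝ :=
  Rn t d n + 60 * n ^ 2 * t ^ 4 * (5 * An t d n - 3 * (d * Fn t d n))

/-- the value on the ray `(19, 9)` -/
def P2n (t d n : ℝ) : ℝ := 19 * An t d n - 9 * (d * Fn t d n)

theorem Gn_1 (a b c : ℝ) : Gn (a + 2 * b + 3 * c) c (b + c) =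
    10 * a ^ 6 + 137 * a ^ 5 * b + 197 * a ^ 5 * c + 761 * a ^ 4 * b ^ 2 +
      2207 * a ^ 4 * b * c + 1561 * a ^ 4 * c ^ 2 + 2208 * a ^ 3 * b ^ 3 +
      9668 * a ^ 3 * b ^ 2 * c + 13791 * a ^ 3 * b * c ^ 2 + 6391 * a ^ 3 * c ^ 3 +
      3544 * a ^ 2 * b ^ 4 + 20800 * a ^ 2 * b ^ 3 * c + 44796 * a ^ 2 * b ^ 2 * c ^ 2 +
      41865 * a ^ 2 * b * c ^ 3 + 14247 * a ^ 2 * c ^ 4 + 2992 * a * b ^ 5 +
      22048 * a * b ^ 4 * c + 63644 * a * b ^ 3 * c ^ 2 + 89796 * a * b ^ 2 * c ^ 3 +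
      61632 * a * b * c ^ 4 + 16308 * a * c ^ 5 + 1040 * b ^ 6 + 9232 * b ^ 5 * c +
      33456 * b ^ 4 * c ^ 2 + 63260 * b ^ 3 * c ^ 3 + 65547 * b ^ 2 * c ^ 4 +
      34992 * b * c ^ 5 + 7290 * c ^ 6 := by
  unfold Gn
  ring

theorem Gn_2 (a b c : ℝ) : Gn (a + 3 * b + 19 * c) (b + 9 * c) b =
    10 * a ^ 6 + 197 * a ^ 5 * b + 1140 * a ^ 5 * c + 1561 * a ^ 4 * b ^ 2 +
      18085 * a ^ 4 * b * c + 51315 * a ^ 4 * c ^ 2 + 6391 * a ^ 3 * b ^ 3 +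
      110878 * a ^ 3 * b ^ 2 * c + 628379 * a ^ 3 * b * c ^ 2 + 1156340 * a ^ 3 * c ^ 3 +
      14247 * a ^ 2 * b ^ 4 + 327837 * a ^ 2 * b ^ 3 * c +
      2769063 * a ^ 2 * b ^ 2 * c ^ 2 + 10105235 * a ^ 2 * b * c ^ 3 +
      13289442 * a ^ 2 * c ^ 4 + 16308 * a * b ^ 5 + 464112 * a * b ^ 4 * c +
      5153628 * a * b ^ 3 * c ^ 2 + 27656188 * a * b ^ 2 * c ^ 3 +
      70569760 * a * b * c ^ 4 + 66297156 * a * c ^ 5 + 7290 * b ^ 6 +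
      241812 * b ^ 5 * c + 3211317 * b ^ 4 * c ^ 2 + 21358612 * b ^ 3 * c ^ 3 +
      71225248 * b ^ 2 * c ^ 4 + 95559632 * b * c ^ 5 + 969769 * c ^ 6 := by
  unfold Gn
  ring

theorem P2n_1 (a b c : ℝ) : P2n (a + 2 * b + 3 * c) c (b + c) =
    190 * a ^ 6 + 2280 * a ^ 5 * b + 2790 * a ^ 5 * c + 11571 * a ^ 4 * b ^ 2 +
      28044 * a ^ 4 * b * c + 16838 * a ^ 4 * c ^ 2 + 31768 * a ^ 3 * b ^ 3 +
      114804 * a ^ 3 * b ^ 2 * c + 136850 * a ^ 3 * b * c ^ 2 + 53326 * a ^ 3 * c ^ 3 +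
      49704 * a ^ 2 * b ^ 4 + 238968 * a ^ 2 * b ^ 3 * c +
      426222 * a ^ 2 * b ^ 2 * c ^ 2 + 331494 * a ^ 2 * b * c ^ 3 +
      94158 * a ^ 2 * c ^ 4 + 41952 * a * b ^ 5 + 252432 * a * b ^ 4 * c +
      601504 * a * b ^ 3 * c ^ 2 + 704532 * a * b ^ 2 * c ^ 3 + 403470 * a * b * c ^ 4 +
      84888 * a * c ^ 5 + 14896 * b ^ 6 + 108000 * b ^ 5 * c + 323512 * b ^ 4 * c ^ 2 +
      509696 * b ^ 3 * c ^ 3 + 444159 * b ^ 2 * c ^ 4 + 192726 * b * c ^ 5 +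
      32886 * c ^ 6 := by
  unfold P2n An Fn
  ring

theorem P2n_2 (a b c : ℝ) : P2n (a + 3 * b + 19 * c) (b + 9 * c) b =
    190 * a ^ 6 + 2790 * a ^ 5 * b + 15990 * a ^ 5 * c + 16838 * a ^ 4 * b ^ 2 +
      190188 * a ^ 4 * b * c + 544065 * a ^ 4 * c ^ 2 + 53326 * a ^ 3 * b ^ 3 +
      881672 * a ^ 3 * b ^ 2 * c + 4905162 * a ^ 3 * b * c ^ 2 + 9216848 * a ^ 3 * c ^ 3 +
      94158 * a ^ 2 * b ^ 4 + 2006022 * a ^ 2 * b ^ 3 * c +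
      16079088 * a ^ 2 * b ^ 2 * c ^ 2 + 57753414 * a ^ 2 * b * c ^ 3 +
      78986382 * a ^ 2 * c ^ 4 + 84888 * a * b ^ 5 + 2071890 * a * b ^ 4 * c +
      19224732 * a * b ^ 3 * c ^ 2 + 80802968 * a * b ^ 2 * c ^ 3 +
      131430060 * a * b * c ^ 4 + 5818614 * a * c ^ 5 + 32886 * b ^ 6 +
      890190 * b ^ 5 * c + 9182439 * b ^ 4 * c ^ 2 + 43075720 * b ^ 3 * c ^ 3 +
      80114768 * b ^ 2 * c ^ 4 + 17455842 * b * c ^ 5 + 18425611 * c ^ 6 := by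
  unfold P2n An Fn
  ring

def q31_10 (b c : ℝ) : ℝ :=
  63 * b ^ 2 + 126 * b * c + 213 * c ^ 2

theorem q31_10_nonneg {b c : ℝ} (hb : 0 ≤ b) (hc : 0 ≤ c) : 0 ≤ q31_10 b c := by
  unfold q31_10; positivity

def q31_9 (b c : ℝ) : ℝ :=
  2178 * b ^ 3 + 7164 * b ^ 2 * c + 15024 * b * c ^ 2 + 11538 * c ^ 3

theorem q31_9_nonneg {b c : ℝ} (hb : 0 ≤ b) (hc : 0 ≤ c) : 0 ≤ q31_9 b c := by
  unfold q31_9; positivity

def q31_8 (b c : ℝ) : ℝ :=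
  28701 * b ^ 4 + 134406 * b ^ 3 * c + 340149 * b ^ 2 * c ^ 2 + 456954 * b * c ^ 3 +
      227235 * c ^ 4

theorem q31_8_nonneg {b c : ℝ} (hb : 0 ≤ b) (hc : 0 ≤ c) : 0 ≤ q31_8 b c := by
  unfold q31_8; positivity

def q31_7 (b c : ℝ) : ℝ :=
  206064 * b ^ 5 + 1259928 * b ^ 4 * c + 3863238 * b ^ 3 * c ^ 2 + 6948762 * b ^ 2 * c ^ 3 +
      6543948 * b * c ^ 4 + 2406360 * c ^ 5

theorem q31_7_nonneg {b c : ℝ} (hb : 0 ≤ b) (hc : 0 ≤ c) : 0 ≤ q31_7 b c := by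
  unfold q31_7; positivity

def q31_6 (b c : ℝ) : ℝ :=
  922320 * b ^ 6 + 6976368 * b ^ 5 * c + 25580016 * b ^ 4 * c ^ 2 +
      56826042 * b ^ 3 * c ^ 3 + 75679065 * b ^ 2 * c ^ 4 + 54224730 * b * c ^ 5 +
      15837819 * c ^ 6

theorem q31_6_nonneg {b c : ℝ} (hb : 0 ≤ b) (hc : 0 ≤ c) : 0 ≤ q31_6 b c := by
  unfold q31_6; positivity

def q31_5 (b c : ℝ) : ℝ :=
  2733696 * b ^ 7 + 24669792 * b ^ 6 * c + 106264200 * b ^ 5 * c ^ 2 +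
      280936824 * b ^ 4 * c ^ 3 + 475076406 * b ^ 3 * c ^ 4 + 494154612 * b ^ 2 * c ^ 5 +
      284813136 * b * c ^ 6 + 69154290 * c ^ 7

theorem q31_5_nonneg {b c : ℝ} (hb : 0 ≤ b) (hc : 0 ≤ c) : 0 ≤ q31_5 b c := by
  unfold q31_5; positivity

def q31_4 (b c : ℝ) : ℝ :=
  5485536 * b ^ 8 + 57552768 * b ^ 7 * c + 286294848 * b ^ 6 * c ^ 2 +
      880191816 * b ^ 5 * c ^ 3 + 1792568190 * b ^ 4 * c ^ 4 +
      2410867074 * b ^ 3 * c ^ 5 + 2044786095 * b ^ 2 * c ^ 6 + 985891878 * b * c ^ 7 +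
      205477965 * c ^ 8

theorem q31_4_nonneg {b c : ℝ} (hb : 0 ≤ b) (hc : 0 ≤ c) : 0 ≤ q31_4 b c := by
  unfold q31_4; positivity

def q31_3 (b c : ℝ) : ℝ :=
  7402752 * b ^ 9 + 88566912 * b ^ 8 * c + 501229728 * b ^ 7 * c ^ 2 +
      1761754848 * b ^ 6 * c ^ 3 + 4188733920 * b ^ 5 * c ^ 4 +
      6860537208 * b ^ 4 * c ^ 5 + 7607389002 * b ^ 3 * c ^ 6 +
      5438396106 * b ^ 2 * c ^ 7 + 2258215524 * b * c ^ 8 + 413806644 * c ^ 9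

theorem q31_3_nonneg {b c : ℝ} (hb : 0 ≤ b) (hc : 0 ≤ c) : 0 ≤ q31_3 b c := by
  unfold q31_3; positivity

def q31_2 (b c : ℝ) : ℝ :=
  6455808 * b ^ 10 + 86766336 * b ^ 9 * c + 551559936 * b ^ 8 * c ^ 2 +
      2186494944 * b ^ 7 * c ^ 3 + 5944231776 * b ^ 6 * c ^ 4 +
      11437921152 * b ^ 5 * c ^ 5 + 15570526896 * b ^ 4 * c ^ 6 +
      14652370854 * b ^ 3 * c ^ 7 + 9061059816 * b ^ 2 * c ^ 8 + 3314325600 * b * c ^ 9 +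
      544003128 * c ^ 10

theorem q31_2_nonneg {b c : ℝ} (hb : 0 ≤ b) (hc : 0 ≤ c) : 0 ≤ q31_2 b c := by
  unfold q31_2; positivity

def q31_1 (b c : ℝ) : ℝ :=
  3294720 * b ^ 11 + 49153536 * b ^ 10 * c + 347202432 * b ^ 9 * c ^ 2 +
      1535005824 * b ^ 8 * c ^ 3 + 4699570080 * b ^ 7 * c ^ 4 +
      10373714400 * b ^ 6 * c ^ 5 + 16682404968 * b ^ 5 * c ^ 6 +
      19379571192 * b ^ 4 * c ^ 7 + 15844172184 * b ^ 3 * c ^ 8 +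
      8655023340 * b ^ 2 * c ^ 9 + 2839495824 * b * c ^ 10 + 423578160 * c ^ 11

theorem q31_1_nonneg {b c : ℝ} (hb : 0 ≤ b) (hc : 0 ≤ c) : 0 ≤ q31_1 b c := by
  unfold q31_1; positivity

def q31_0 (b c : ℝ) : ℝ :=
  748800 * b ^ 12 + 12280320 * b ^ 11 * c + 95509248 * b ^ 10 * c ^ 2 +
      466482048 * b ^ 9 * c ^ 3 + 1589431392 * b ^ 8 * c ^ 4 +
      3956747616 * b ^ 7 * c ^ 5 + 7325636784 * b ^ 6 * c ^ 6 +
      10095495048 * b ^ 5 * c ^ 7 + 10227673413 * b ^ 4 * c ^ 8 +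
      7407707256 * b ^ 3 * c ^ 9 + 3636552348 * b ^ 2 * c ^ 10 + 1085714280 * b * c ^ 11 +
      148803480 * c ^ 12

theorem q31_0_nonneg {b c : ℝ} (hb : 0 ≤ b) (hc : 0 ≤ c) : 0 ≤ q31_0 b c := by
  unfold q31_0; positivity

theorem P3n_1 (a b c : ℝ) : P3n (a + 2 * b + 3 * c) c (b + c) =
      a ^ 10 * q31_10 b c +
      a ^ 9 * q31_9 b c +
      a ^ 8 * q31_8 b c +
      a ^ 7 * q31_7 b c +
      a ^ 6 * q31_6 b c +
      a ^ 5 * q31_5 b c +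
      a ^ 4 * q31_4 b c +
      a ^ 3 * q31_3 b c +
      a ^ 2 * q31_2 b c +
      a * q31_1 b c +
      q31_0 b c := by
  unfold P3n Rn Gn An Fn q31_10 q31_9 q31_8 q31_7 q31_6 q31_5 q31_4 q31_3 q31_2 q31_1 q31_0
  ring

def q32_10 (b c : ℝ) : ℝ :=
  213 * b ^ 2 + 2700 * b * c + 12150 * c ^ 2

theorem q32_10_nonneg {b c : ℝ} (hb : 0 ≤ b) (hc : 0 ≤ c) : 0 ≤ q32_10 b c := by
  unfold q32_10; positivity

def q32_9 (b c : ℝ) : ℝ :=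
  11538 * b ^ 3 + 197610 * b ^ 2 * c + 1220130 * b * c ^ 2 + 2308500 * c ^ 3

theorem q32_9_nonneg {b c : ℝ} (hb : 0 ≤ b) (hc : 0 ≤ c) : 0 ≤ q32_9 b c := by
  unfold q32_9; positivity

def q32_8 (b c : ℝ) : ℝ :=
  227235 * b ^ 4 + 5106294 * b ^ 3 * c + 43774857 * b ^ 2 * c ^ 2 + 158875830 * b * c ^ 3 +
      184090725 * c ^ 4

theorem q32_8_nonneg {b c : ℝ} (hb : 0 ≤ b) (hc : 0 ≤ c) : 0 ≤ q32_8 b c := by
  unfold q32_8; positivity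

def q32_7 (b c : ℝ) : ℝ :=
  2406360 * b ^ 5 + 67569468 * b ^ 4 * c + 758728890 * b ^ 3 * c ^ 2 +
      4115930400 * b ^ 2 * c ^ 3 + 10188327906 * b * c ^ 4 + 7980946200 * c ^ 5

theorem q32_7_nonneg {b c : ℝ} (hb : 0 ≤ b) (hc : 0 ≤ c) : 0 ≤ q32_7 b c := by
  unfold q32_7; positivity

def q32_6 (b c : ℝ) : ℝ :=
  15837819 * b ^ 6 + 535664856 * b ^ 5 * c + 7505543460 * b ^ 4 * c ^ 2 +
      54653679342 * b ^ 3 * c ^ 3 + 211197463065 * b ^ 2 * c ^ 4 +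
      384346135458 * b * c ^ 5 + 207402191280 * c ^ 6

theorem q32_6_nonneg {b c : ℝ} (hb : 0 ≤ b) (hc : 0 ≤ c) : 0 ≤ q32_6 b c := by
  unfold q32_6; positivity

def q32_5 (b c : ℝ) : ℝ :=
  69154290 * b ^ 7 + 2743671186 * b ^ 6 * c + 46325322126 * b ^ 5 * c ^ 2 +
      426064812756 * b ^ 4 * c ^ 3 + 2261175750270 * b ^ 3 * c ^ 4 +
      6689484463194 * b ^ 2 * c ^ 5 + 9422768785554 * b * c ^ 6 + 3525000826320 * c ^ 7

theorem q32_5_nonneg {b c : ℝ} (hb : 0 ≤ b) (hc : 0 ≤ c) : 0 ≤ q32_5 b c := by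
  unfold q32_5; positivity

def q32_4 (b c : ℝ) : ℝ :=
  205477965 * b ^ 8 + 9379101078 * b ^ 7 * c + 186077834289 * b ^ 6 * c ^ 2 +
      2078777387742 * b ^ 5 * c ^ 3 + 14135544980265 * b ^ 4 * c ^ 4 +
      58791821514786 * b ^ 3 * c ^ 5 + 140926870317087 * b ^ 2 * c ^ 6 +
      162916252186266 * b * c ^ 7 + 46848275063658 * c ^ 8

theorem q32_4_nonneg {b c : ℝ} (hb : 0 ≤ b) (hc : 0 ≤ c) : 0 ≤ q32_4 b c := by
  unfold q32_4; positivity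

def q32_3 (b c : ℝ) : ℝ :=
  413806644 * b ^ 9 + 21413517048 * b ^ 8 * c + 489856352058 * b ^ 7 * c ^ 2 +
      6467715688116 * b ^ 6 * c ^ 3 + 53927651889222 * b ^ 5 * c ^ 4 +
      291391567462536 * b ^ 4 * c ^ 5 + 1003017960809910 * b ^ 3 * c ^ 6 +
      2052984780537876 * b ^ 2 * c ^ 7 + 2095598773597014 * b * c ^ 8 +
      590391572863608 * c ^ 9

theorem q32_3_nonneg {b c : ℝ} (hb : 0 ≤ b) (hc : 0 ≤ c) : 0 ≤ q32_3 b c := by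
  unfold q32_3; positivity

def q32_2 (b c : ℝ) : ℝ :=
  544003128 * b ^ 10 + 31545550440 * b ^ 9 * c + 819812616696 * b ^ 8 * c ^ 2 +
      12530527900326 * b ^ 7 * c ^ 3 + 124182344326086 * b ^ 6 * c ^ 4 +
      828703526436918 * b ^ 5 * c ^ 5 + 3737696048296086 * b ^ 4 * c ^ 6 +
      11090945352330594 * b ^ 3 * c ^ 7 + 20187015641124714 * b ^ 2 * c ^ 8 +
      19197770896014426 * b * c ^ 9 + 5979501229877514 * c ^ 10

theorem q32_2_nonneg {b c : ℝ} (hb : 0 ≤ b) (hc : 0 ≤ c) : 0 ≤ q32_2 b c := by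
  unfold q32_2; positivity

def q32_1 (b c : ℝ) : ℝ :=
  423578160 * b ^ 11 + 27258837984 * b ^ 10 * c + 794874991500 * b ^ 9 * c ^ 2 +
      13829754160404 * b ^ 8 * c ^ 3 + 159024621421800 * b ^ 7 * c ^ 4 +
      1263813286782456 * b ^ 6 * c ^ 5 + 7044471505162272 * b ^ 5 * c ^ 6 +
      27319719826358880 * b ^ 4 * c ^ 7 + 71330746729801320 * b ^ 3 * c ^ 8 +
      116748083205205800 * b ^ 2 * c ^ 9 + 102757388239307988 * b * c ^ 10 +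
      32019248420398476 * c ^ 11

theorem q32_1_nonneg {b c : ℝ} (hb : 0 ≤ b) (hc : 0 ≤ c) : 0 ≤ q32_1 b c := by
  unfold q32_1; positivity

def q32_0 (b c : ℝ) : ℝ :=
  148803480 * b ^ 12 + 10535128920 * b ^ 11 * c + 340880787828 * b ^ 10 * c ^ 2 +
      6651637608096 * b ^ 9 * c ^ 3 + 86947013271249 * b ^ 8 * c ^ 4 +
      799303297974840 * b ^ 7 * c ^ 5 + 5274041912907828 * b ^ 6 * c ^ 6 +
      24996952662559032 * b ^ 5 * c ^ 7 + 83579534201763246 * b ^ 4 * c ^ 8 +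
      188825919271695216 * b ^ 3 * c ^ 9 + 263950512543876336 * b ^ 2 * c ^ 10 +
      186874723278937512 * b * c ^ 11 + 32754876962852817 * c ^ 12

theorem q32_0_nonneg {b c : ℝ} (hb : 0 ≤ b) (hc : 0 ≤ c) : 0 ≤ q32_0 b c := by
  unfold q32_0; positivity

theorem P3n_2 (a b c : ℝ) : P3n (a + 3 * b + 19 * c) (b + 9 * c) b =
      a ^ 10 * q32_10 b c +
      a ^ 9 * q32_9 b c +
      a ^ 8 * q32_8 b c +
      a ^ 7 * q32_7 b c +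
      a ^ 6 * q32_6 b c +
      a ^ 5 * q32_5 b c +
      a ^ 4 * q32_4 b c +
      a ^ 3 * q32_3 b c +
      a ^ 2 * q32_2 b c +
      a * q32_1 b c +
      q32_0 b c := by
  unfold P3n Rn Gn An Fn q32_10 q32_9 q32_8 q32_7 q32_6 q32_5 q32_4 q32_3 q32_2 q32_1 q32_0
  ring

def q41_10 (b c : ℝ) : ℝ :=
  1863 * b ^ 2 + 3726 * b * c + 2013 * c ^ 2

theorem q41_10_nonneg {b c : ℝ} (hb : 0 ≤ b) (hc : 0 ≤ c) : 0 ≤ q41_10 b c := by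
  unfold q41_10; positivity

def q41_9 (b c : ℝ) : ℝ :=
  38178 * b ^ 3 + 120564 * b ^ 2 * c + 133824 * b * c ^ 2 + 52938 * c ^ 3

theorem q41_9_nonneg {b c : ℝ} (hb : 0 ≤ b) (hc : 0 ≤ c) : 0 ≤ q41_9 b c := by
  unfold q41_9; positivity

def q41_8 (b c : ℝ) : ℝ :=
  354321 * b ^ 4 + 1530126 * b ^ 3 * c + 2547489 * b ^ 2 * c ^ 2 + 1986954 * b * c ^ 3 +
      619995 * c ^ 4

theorem q41_8_nonneg {b c : ℝ} (hb : 0 ≤ b) (hc : 0 ≤ c) : 0 ≤ q41_8 b c := by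
  unfold q41_8; positivity

def q41_7 (b c : ℝ) : ℝ :=
  1959984 * b ^ 5 + 10756728 * b ^ 4 * c + 23865918 * b ^ 3 * c ^ 2 +
      27315042 * b ^ 2 * c ^ 3 + 16486068 * b * c ^ 4 + 4242000 * c ^ 5

theorem q41_7_nonneg {b c : ℝ} (hb : 0 ≤ b) (hc : 0 ≤ c) : 0 ≤ q41_7 b c := by
  unfold q41_7; positivity

def q41_6 (b c : ℝ) : ℝ :=
  7151760 * b ^ 6 + 47719728 * b ^ 5 * c + 132589296 * b ^ 4 * c ^ 2 +
      199132962 * b ^ 3 * c ^ 3 + 173951145 * b ^ 2 * c ^ 4 + 85545090 * b * c ^ 5 +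
      18697659 * c ^ 6

theorem q41_6_nonneg {b c : ℝ} (hb : 0 ≤ b) (hc : 0 ≤ c) : 0 ≤ q41_6 b c := by
  unfold q41_6; positivity

def q41_5 (b c : ℝ) : ℝ :=
  17974656 * b ^ 7 + 141557472 * b ^ 6 * c + 474053160 * b ^ 5 * c ^ 2 +
      882279384 * b ^ 4 * c ^ 3 + 999718446 * b ^ 3 * c ^ 4 + 703548252 * b ^ 2 * c ^ 5 +
      290739096 * b * c ^ 6 + 55128330 * c ^ 7

theorem q41_5_nonneg {b c : ℝ} (hb : 0 ≤ b) (hc : 0 ≤ c) : 0 ≤ q41_5 b c := by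
  unfold q41_5; positivity

def q41_4 (b c : ℝ) : ℝ :=
  31491936 * b ^ 8 + 286570368 * b ^ 7 * c + 1126966848 * b ^ 6 * c ^ 2 +
      2511085416 * b ^ 5 * c ^ 3 + 3495751590 * b ^ 4 * c ^ 4 +
      3157591674 * b ^ 3 * c ^ 5 + 1844343495 * b ^ 2 * c ^ 6 + 652058478 * b * c ^ 7 +
      108861165 * c ^ 8

theorem q41_4_nonneg {b c : ℝ} (hb : 0 ≤ b) (hc : 0 ≤ c) : 0 ≤ q41_4 b c := by
  unfold q41_4; positivity

def q41_3 (b c : ℝ) : ℝ :=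
  37953792 * b ^ 9 + 392717952 * b ^ 8 * c + 1779563808 * b ^ 7 * c ^ 2 +
      4638385248 * b ^ 6 * c ^ 3 + 7688291040 * b ^ 5 * c ^ 4 +
      8463932568 * b ^ 4 * c ^ 5 + 6269902962 * b ^ 3 * c ^ 6 +
      3078778626 * b ^ 2 * c ^ 7 + 936927324 * b * c ^ 8 + 138915324 * c ^ 9

theorem q41_3_nonneg {b c : ℝ} (hb : 0 ≤ b) (hc : 0 ≤ c) : 0 ≤ q41_3 b c := by
  unfold q41_3; positivity

def q41_2 (b c : ℝ) : ℝ :=
  30094848 * b ^ 10 + 349652736 * b ^ 9 * c + 1799268096 * b ^ 8 * c ^ 2 +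
      5393726304 * b ^ 7 * c ^ 3 + 10428515616 * b ^ 6 * c ^ 4 +
      13605057792 * b ^ 5 * c ^ 5 + 12177015696 * b ^ 4 * c ^ 6 +
      7456236894 * b ^ 3 * c ^ 7 + 3056111856 * b ^ 2 * c ^ 8 + 790265160 * b * c ^ 9 +
      103891248 * c ^ 10

theorem q41_2_nonneg {b c : ℝ} (hb : 0 ≤ b) (hc : 0 ≤ c) : 0 ≤ q41_2 b c := by
  unfold q41_2; positivity

def q41_1 (b c : ℝ) : ℝ :=
  14169600 * b ^ 11 + 182969856 * b ^ 10 * c + 1056811392 * b ^ 9 * c ^ 2 +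
      3595726464 * b ^ 8 * c ^ 3 + 7988881440 * b ^ 7 * c ^ 4 +
      12136355040 * b ^ 6 * c ^ 5 + 12819041928 * b ^ 5 * c ^ 6 +
      9378196632 * b ^ 4 * c ^ 7 + 4652398944 * b ^ 3 * c ^ 8 +
      1512106380 * b ^ 2 * c ^ 9 + 308786904 * b * c ^ 10 + 34642080 * c ^ 11

theorem q41_1_nonneg {b c : ℝ} (hb : 0 ≤ b) (hc : 0 ≤ c) : 0 ≤ q41_1 b c := by
  unfold q41_1; positivity

def q41_0 (b c : ℝ) : ℝ :=
  3006720 * b ^ 12 + 42785280 * b ^ 11 * c + 274714368 * b ^ 10 * c ^ 2 +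
      1049463168 * b ^ 9 * c ^ 3 + 2647618272 * b ^ 8 * c ^ 4 +
      4624106976 * b ^ 7 * c ^ 5 + 5686749744 * b ^ 6 * c ^ 6 +
      4892845608 * b ^ 5 * c ^ 7 + 2850110793 * b ^ 4 * c ^ 8 +
      1044178776 * b ^ 3 * c ^ 9 + 205280568 * b ^ 2 * c ^ 10 + 14171760 * b * c ^ 11

theorem q41_0_nonneg {b c : ℝ} (hb : 0 ≤ b) (hc : 0 ≤ c) : 0 ≤ q41_0 b c := by
  unfold q41_0; positivity

theorem P4n_1 (a b c : ℝ) : P4n (a + 2 * b + 3 * c) c (b + c) =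
      a ^ 10 * q41_10 b c +
      a ^ 9 * q41_9 b c +
      a ^ 8 * q41_8 b c +
      a ^ 7 * q41_7 b c +
      a ^ 6 * q41_6 b c +
      a ^ 5 * q41_5 b c +
      a ^ 4 * q41_4 b c +
      a ^ 3 * q41_3 b c +
      a ^ 2 * q41_2 b c +
      a * q41_1 b c +
      q41_0 b c := by
  unfold P4n Rn Gn An Fn q41_10 q41_9 q41_8 q41_7 q41_6 q41_5 q41_4 q41_3 q41_2 q41_1 q41_0
  ring

def q42_10 (b c : ℝ) : ℝ :=
  2013 * b ^ 2 + 2700 * b * c + 12150 * c ^ 2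

theorem q42_10_nonneg {b c : ℝ} (hb : 0 ≤ b) (hc : 0 ≤ c) : 0 ≤ q42_10 b c := by
  unfold q42_10; positivity

def q42_9 (b c : ℝ) : ℝ :=
  52938 * b ^ 3 + 426210 * b ^ 2 * c + 1220130 * b * c ^ 2 + 2308500 * c ^ 3

theorem q42_9_nonneg {b c : ℝ} (hb : 0 ≤ b) (hc : 0 ≤ c) : 0 ≤ q42_9 b c := by
  unfold q42_9; positivity

def q42_8 (b c : ℝ) : ℝ :=
  619995 * b ^ 4 + 9201654 * b ^ 3 * c + 54134757 * b ^ 2 * c ^ 2 + 158875830 * b * c ^ 3 +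
      184090725 * c ^ 4

theorem q42_8_nonneg {b c : ℝ} (hb : 0 ≤ b) (hc : 0 ≤ c) : 0 ≤ q42_8 b c := by
  unfold q42_8; positivity

def q42_7 (b c : ℝ) : ℝ :=
  4242000 * b ^ 5 + 92114988 * b ^ 4 * c + 852607890 * b ^ 3 * c ^ 2 +
      4191845760 * b ^ 2 * c ^ 3 + 10188327906 * b * c ^ 4 + 7980946200 * c ^ 5

theorem q42_7_nonneg {b c : ℝ} (hb : 0 ≤ b) (hc : 0 ≤ c) : 0 ≤ q42_7 b c := by
  unfold q42_7; positivity

def q42_6 (b c : ℝ) : ℝ :=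
  18697659 * b ^ 6 + 536707776 * b ^ 5 * c + 6874000140 * b ^ 4 * c ^ 2 +
      49426484742 * b ^ 3 * c ^ 3 + 199088033265 * b ^ 2 * c ^ 4 +
      384346135458 * b * c ^ 5 + 207402191280 * c ^ 6

theorem q42_6_nonneg {b c : ℝ} (hb : 0 ≤ b) (hc : 0 ≤ c) : 0 ≤ q42_6 b c := by
  unfold q42_6; positivity

def q42_5 (b c : ℝ) : ℝ :=
  55128330 * b ^ 7 + 1978292466 * b ^ 6 * c + 32755763646 * b ^ 5 * c ^ 2 +
      316724210196 * b ^ 4 * c ^ 3 + 1844138097270 * b ^ 3 * c ^ 4 +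
      6075331226874 * b ^ 2 * c ^ 5 + 9422768785554 * b * c ^ 6 + 3525000826320 * c ^ 7

theorem q42_5_nonneg {b c : ℝ} (hb : 0 ≤ b) (hc : 0 ≤ c) : 0 ≤ q42_5 b c := by
  unfold q42_5; positivity

def q42_4 (b c : ℝ) : ℝ :=
  108861165 * b ^ 8 + 4725894078 * b ^ 7 * c + 97439923089 * b ^ 6 * c ^ 2 +
      1208255595342 * b ^ 5 * c ^ 3 + 9438353410665 * b ^ 4 * c ^ 4 +
      45503214704586 * b ^ 3 * c ^ 5 + 125460497382687 * b ^ 2 * c ^ 6 +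
      162916252186266 * b * c ^ 7 + 46848275063658 * c ^ 8

theorem q42_4_nonneg {b c : ℝ} (hb : 0 ≤ b) (hc : 0 ≤ c) : 0 ≤ q42_4 b c := by
  unfold q42_4; positivity

def q42_3 (b c : ℝ) : ℝ :=
  138915324 * b ^ 9 + 7174241928 * b ^ 8 * c + 181236680658 * b ^ 7 * c ^ 2 +
      2815563949716 * b ^ 6 * c ^ 3 + 28329238994622 * b ^ 5 * c ^ 4 +
      184785669620376 * b ^ 4 * c ^ 5 + 758201092624350 * b ^ 3 * c ^ 6 +
      1813396443600276 * b ^ 2 * c ^ 7 + 2095598773597014 * b * c ^ 8 +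
      590391572863608 * c ^ 9

theorem q42_3_nonneg {b c : ℝ} (hb : 0 ≤ b) (hc : 0 ≤ c) : 0 ≤ q42_3 b c := by
  unfold q42_3; positivity

def q42_2 (b c : ℝ) : ℝ :=
  103891248 * b ^ 10 + 6405285600 * b ^ 9 * c + 200035916496 * b ^ 8 * c ^ 2 +
      3889182437406 * b ^ 7 * c ^ 3 + 49472549807886 * b ^ 6 * c ^ 4 +
      417819215715678 * b ^ 5 * c ^ 5 + 2331887825915166 * b ^ 4 * c ^ 6 +
      8352091169681994 * b ^ 3 * c ^ 7 + 17858622458423754 * b ^ 2 * c ^ 8 +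
      19197770896014426 * b * c ^ 9 + 5979501229877514 * c ^ 10

theorem q42_2_nonneg {b c : ℝ} (hb : 0 ≤ b) (hc : 0 ≤ c) : 0 ≤ q42_2 b c := by
  unfold q42_2; positivity

def q42_1 (b c : ℝ) : ℝ :=
  34642080 * b ^ 11 + 2728308744 * b ^ 10 * c + 113124805740 * b ^ 9 * c ^ 2 +
      2850389747604 * b ^ 8 * c ^ 3 + 45939016636200 * b ^ 7 * c ^ 4 +
      490393587899016 * b ^ 6 * c ^ 5 + 3528863106745152 * b ^ 5 * c ^ 6 +
      17070604690509600 * b ^ 4 * c ^ 7 + 53931646635720120 * b ^ 3 * c ^ 8 +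
      103637576421956400 * b ^ 2 * c ^ 9 + 102757388239307988 * b * c ^ 10 +
      32019248420398476 * c ^ 11

theorem q42_1_nonneg {b c : ℝ} (hb : 0 ≤ b) (hc : 0 ≤ c) : 0 ≤ q42_1 b c := by
  unfold q42_1; positivity

def q42_0 (b c : ℝ) : ℝ :=
  218874960 * b ^ 11 * c + 20894650488 * b ^ 10 * c ^ 2 + 796707117216 * b ^ 9 * c ^ 3 +
      16894010408049 * b ^ 8 * c ^ 4 + 226176887955240 * b ^ 7 * c ^ 5 +
      2025062872751148 * b ^ 6 * c ^ 6 + 12389577172296312 * b ^ 5 * c ^ 7 +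
      51519401790532806 * b ^ 4 * c ^ 8 + 140567717145452616 * b ^ 3 * c ^ 9 +
      231293254355859156 * b ^ 2 * c ^ 10 + 186874723278937512 * b * c ^ 11 +
      32754876962852817 * c ^ 12

theorem q42_0_nonneg {b c : ℝ} (hb : 0 ≤ b) (hc : 0 ≤ c) : 0 ≤ q42_0 b c := by
  unfold q42_0; positivity

theorem P4n_2 (a b c : ℝ) : P4n (a + 3 * b + 19 * c) (b + 9 * c) b =
      a ^ 10 * q42_10 b c +
      a ^ 9 * q42_9 b c +
      a ^ 8 * q42_8 b c +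
      a ^ 7 * q42_7 b c +
      a ^ 6 * q42_6 b c +
      a ^ 5 * q42_5 b c +
      a ^ 4 * q42_4 b c +
      a ^ 3 * q42_3 b c +
      a ^ 2 * q42_2 b c +
      a * q42_1 b c +
      q42_0 b c := by
  unfold P4n Rn Gn An Fn q42_10 q42_9 q42_8 q42_7 q42_6 q42_5 q42_4 q42_3 q42_2 q42_1 q42_0
  ring

theorem P3n_pos_1 {a b c : ℝ} (ha : 0 ≤ a) (hb : 0 ≤ b) (hc : 0 ≤ c) (h : 0 < b + c) :
    0 < P3n (a + 2 * b + 3 * c) c (b + c) := by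
  rw [P3n_1]
  have z10 := q31_10_nonneg hb hc
  have z9 := q31_9_nonneg hb hc
  have z8 := q31_8_nonneg hb hc
  have z7 := q31_7_nonneg hb hc
  have z6 := q31_6_nonneg hb hc
  have z5 := q31_5_nonneg hb hc
  have z4 := q31_4_nonneg hb hc
  have z3 := q31_3_nonneg hb hc
  have z2 := q31_2_nonneg hb hc
  have z1 := q31_1_nonneg hb hc
  have z0 := q31_0_nonneg hb hc
  have z : 0 < q31_0 b c := by
    rcases hb.eq_or_lt with h0 | h0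
    · have hc' : 0 < c := by linarith
      unfold q31_0; positivity
    · unfold q31_0; positivity
  positivity

theorem P3n_pos_2 {a b c : ℝ} (ha : 0 ≤ a) (hb : 0 < b) (hc : 0 ≤ c) :
    0 < P3n (a + 3 * b + 19 * c) (b + 9 * c) b := by
  rw [P3n_2]
  have z10 := q32_10_nonneg hb.le hc
  have z9 := q32_9_nonneg hb.le hc
  have z8 := q32_8_nonneg hb.le hc
  have z7 := q32_7_nonneg hb.le hc
  have z6 := q32_6_nonneg hb.le hc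
  have z5 := q32_5_nonneg hb.le hc
  have z4 := q32_4_nonneg hb.le hc
  have z3 := q32_3_nonneg hb.le hc
  have z2 := q32_2_nonneg hb.le hc
  have z1 := q32_1_nonneg hb.le hc
  have z0 := q32_0_nonneg hb.le hc
  have z : 0 < q32_0 b c := by unfold q32_0; positivity
  positivity

theorem P4n_pos_1 {a b c : ℝ} (ha : 0 ≤ a) (hb : 0 ≤ b) (hc : 0 ≤ c) (h : 0 < b ∨ 0 < a ∧ 0 < c) :
    0 < P4n (a + 2 * b + 3 * c) c (b + c) := by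
  rw [P4n_1]
  have z10 := q41_10_nonneg hb hc
  have z9 := q41_9_nonneg hb hc
  have z8 := q41_8_nonneg hb hc
  have z7 := q41_7_nonneg hb hc
  have z6 := q41_6_nonneg hb hc
  have z5 := q41_5_nonneg hb hc
  have z4 := q41_4_nonneg hb hc
  have z3 := q41_3_nonneg hb hc
  have z2 := q41_2_nonneg hb hc
  have z1 := q41_1_nonneg hb hc
  have z0 := q41_0_nonneg hb hc
  rcases h with h0 | ⟨h0, h1⟩
  · have z : 0 < q41_0 b c := by unfold q41_0; positivity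
    positivity
  · have z : 0 < q41_10 b c := by unfold q41_10; positivity
    positivity

theorem P4n_pos_2 {a b c : ℝ} (ha : 0 < a) (hb : 0 < b) (hc : 0 ≤ c) :
    0 < P4n (a + 3 * b + 19 * c) (b + 9 * c) b := by
  rw [P4n_2]
  have z10 := q42_10_nonneg hb.le hc
  have z9 := q42_9_nonneg hb.le hc
  have z8 := q42_8_nonneg hb.le hc
  have z7 := q42_7_nonneg hb.le hc
  have z6 := q42_6_nonneg hb.le hc
  have z5 := q42_5_nonneg hb.le hc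
  have z4 := q42_4_nonneg hb.le hc
  have z3 := q42_3_nonneg hb.le hc
  have z2 := q42_2_nonneg hb.le hc
  have z1 := q42_1_nonneg hb.le hc
  have z0 := q42_0_nonneg hb.le hc
  have z : 0 < q42_10 b c := by unfold q42_10; positivity
  positivity

theorem cone_cases {t d n : ℝ} (hn : 0 < n) (hd : 0 ≤ d) (h1 : d + 2 * n ≤ t)
    (h2 : 19 * d + 8 * n < 9 * t) :
    (∃ a b c : ℝ, 0 ≤ a ∧ 0 ≤ b ∧ 0 ≤ c ∧ 0 < b + c ∧ (0 < b ∨ 0 < a ∧ 0 < c) ∧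
      t = a + 2 * b + 3 * c ∧ d = c ∧ n = b + c) ∨
    (∃ a b c : ℝ, 0 < a ∧ 0 < b ∧ 0 ≤ c ∧
      t = a + 3 * b + 19 * c ∧ d = b + 9 * c ∧ n = b) := by
  rcases le_total d n with h | h
  · refine Or.inl ⟨t - 2 * (n - d) - 3 * d, n - d, d, by linarith, by linarith, hd, by linarith,
      ?_, by ring, rfl, by ring⟩
    rcases h.eq_or_lt with h0 | h0
    · exact Or.inr ⟨by linarith, by linarith⟩
    · exact Or.inl (by linarith)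
  · exact Or.inr ⟨t - 3 * n - 19 * ((d - n) / 9), n, (d - n) / 9, by linarith, hn, by linarith,
      by ring, by ring, rfl⟩

theorem all_pos {t d n : ℝ} (hn : 0 < n) (hd : 0 ≤ d) (h1 : d + 2 * n ≤ t)
    (h2 : 19 * d + 8 * n < 9 * t) :
    0 < Gn t d n ∧ 0 ≤ P2n t d n ∧ 0 < P3n t d n ∧ 0 < P4n t d n := by
  rcases cone_cases hn hd h1 h2 with ⟨a, b, c, ha, hb, hc, hbc, h, rfl, rfl, rfl⟩ |
    ⟨a, b, c, ha, hb, hc, rfl, rfl, rfl⟩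
  · refine ⟨?_, ?_, P3n_pos_1 ha hb hc hbc, P4n_pos_1 ha hb hc h⟩
    · rw [Gn_1]
      rcases hb.eq_or_lt with h0 | h0
      · have hc' : 0 < d := by linarith
        positivity
      · positivity
    · rw [P2n_1]; positivity
  · refine ⟨?_, ?_, P3n_pos_2 ha.le hb hc, P4n_pos_2 ha hb hc⟩
    · rw [Gn_2]; positivity
    · rw [P2n_2]; positivity

/-- the multiplier -/
def lam (n t q : ℝ) : ℝ :=
  t / 3 + 17 / 30 * n - 3 / 10 * n ^ 2 / t - 7 / 6 * q / t - 11 / 30 * n * q / t ^ 2 -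
    3 / 5 * q ^ 2 / t ^ 3 - 18 / 5 * q ^ 3 / t ^ 5

/-- its derivative in `t` -/
def lamt (n t q : ℝ) : ℝ :=
  1 / 3 + 3 / 10 * n ^ 2 / t ^ 2 + 7 / 6 * q / t ^ 2 + 11 / 15 * n * q / t ^ 3 +
    9 / 5 * q ^ 2 / t ^ 4 + 18 * q ^ 3 / t ^ 6

/-- its derivative in `q` -/
def lamq (n t q : ℝ) : ℝ :=
  -(7 / 6 / t) - 11 / 30 * n / t ^ 2 - 6 / 5 * q / t ^ 3 - 54 / 5 * q ^ 2 / t ^ 5

theorem lam_pos {t d n : ℝ} (hn : 0 < n) (hd : 0 ≤ d) (h1 : d + 2 * n ≤ t)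
    (h2 : 19 * d + 8 * n < 9 * t) : 0 < lam n t (d ^ 2) := by
  have ht : 0 < t := by linarith
  have e : lam n t (d ^ 2) = Gn t d n / (30 * t ^ 5) := by
    unfold lam Gn
    field_simp
    ring
  rw [e]
  have := (all_pos hn hd h1 h2).1
  positivity

theorem lin_ineq {A E k δ n : ℝ} (hE : 0 ≤ E) (hP2 : 0 ≤ 19 * A - 9 * E) (hδ : 0 ≤ δ)
    (h3 : δ ≤ k - 2 * n ^ 2) (h4 : 19 * δ ≤ 9 * k + 12 * n ^ 2) :
    2 * n ^ 2 * A ≤ A * k - E * δ ∨ n ^ 2 * (5 * A - 3 * E) ≤ A * k - E * δ := by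
  rcases le_total E A with h | h
  · left
    have h5 : 0 ≤ (A - E) * (k - 2 * n ^ 2) :=
      mul_nonneg (by linarith) (by linarith)
    have h6 : 0 ≤ E * (k - 2 * n ^ 2 - δ) := mul_nonneg hE (by linarith)
    linarith
  · right
    have h5 : 0 ≤ (19 * A - 9 * E) * (k - 2 * n ^ 2 - δ) := mul_nonneg hP2 (by linarith)
    have h6 : 0 ≤ (E - A) * (9 * k + 12 * n ^ 2 - 19 * δ) :=
      mul_nonneg (by linarith) (by linarith)
    linarith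

/-- **The pointwise inequality for the multiplier.** -/
theorem ineq145 {t d n k δ m : ℝ} (hn : 0 < n) (hd : 0 ≤ d) (h1 : d + 2 * n ≤ t)
    (h2 : 19 * d + 8 * n < 9 * t) (hδ : 0 ≤ δ) (h3 : δ ≤ k - 2 * n ^ 2)
    (h4 : 19 * δ ≤ 9 * k + 12 * n ^ 2) (hm : m ≤ 2 * d * δ) :
    0 < lamt n t (d ^ 2) * (k - t ^ 2 / 2 - d ^ 2 / 2) +
      lamq n t (d ^ 2) * (m - 2 * t * d ^ 2) + lam n t (d ^ 2) * t -
      3 / 2 * lam n t (d ^ 2) ^ 2 - 3 / 2 * d ^ 2 := by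
  have ht : 0 < t := by linarith
  obtain ⟨-, hP2, hP3, hP4⟩ := all_pos hn hd h1 h2
  have hF : 0 ≤ Fn t d n := by unfold Fn; positivity
  have hE : 0 ≤ d * Fn t d n := by positivity
  have e : lamt n t (d ^ 2) * (k - t ^ 2 / 2 - d ^ 2 / 2) +
      lamq n t (d ^ 2) * (m - 2 * t * d ^ 2) + lam n t (d ^ 2) * t -
      3 / 2 * lam n t (d ^ 2) ^ 2 - 3 / 2 * d ^ 2 =
      (60 * t ^ 4 * (An t d n * k - d * Fn t d n * δ) + Rn t d n +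
        30 * t ^ 4 * Fn t d n * (2 * d * δ - m)) / (1800 * t ^ 10) := by
    unfold lamt lamq lam Rn An Fn Gn
    field_simp
    ring
  rw [e]
  refine div_pos ?_ (by positivity)
  have h5 : 0 ≤ 30 * t ^ 4 * Fn t d n * (2 * d * δ - m) :=
    mul_nonneg (by positivity) (by linarith)
  have h6 : 0 < 60 * t ^ 4 := by positivity
  rcases lin_ineq hE hP2 hδ h3 h4 with h | h
  · have h7 := mul_le_mul_of_nonneg_left h h6.le
    unfold P3n at hP3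
    linarith
  · have h7 := mul_le_mul_of_nonneg_left h h6.le
    unfold P4n at hP4
    linarith

end Vale.Agent.P207.Q.Rel
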