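import Vale.Agent.P207.Q.Rel.Ineq145
import Vale.Agent.P207.Q.H717.RPConst
import Vale.Agent.P207.Q.H791.MaxP

/-!
# P207: the multiplier of the class `κ₊ < (14/5) κ₋ + (6/5) κ₀`

`lam ν t q`, `t = tr U`, `q = 4 |b|²`: the pointwise inequality in components, the multiplier as a
function differentiable along the flow, the multiplier as a jet.
-/

open MeasureTheory Filter Topology

noncomputable section

namespace Vale.Agent.P207.Q.Rel

open Vale.Agent.P207.Q.H892 (Curv)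
open Vale.Agent.P207.Q.H183 (jet_smul)
open Vale.Agent.P207.Q.H413
open Vale.Agent.P207.Q.H717 (exists_eig)
open Vale.Agent.P207.Q.H791 (bb kb RicC)

/-- **The pointwise inequality in components.** -/
theorem point145 {ν u v w k1 k2 k3 : ℝ} (hν : 0 < ν)
    (ulo : ∀ a b : ℝ, ν * (a ^ 2 + b ^ 2) ≤ u * a ^ 2 + 2 * v * (a * b) + w * b ^ 2)
    (uup : ∀ a b a' b' : ℝ, a ^ 2 + b ^ 2 = 1 → a' ^ 2 + b' ^ 2 = 1 →
      u * a ^ 2 + 2 * v * (a * b) + w * b ^ 2 <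
      14 / 5 * (u * a' ^ 2 + 2 * v * (a' * b') + w * b' ^ 2) - 4 / 5 * ν)
    (klo : ∀ a b : ℝ, ν ^ 2 * (a ^ 2 + b ^ 2) ≤ k1 * a ^ 2 + 2 * k2 * (a * b) + k3 * b ^ 2)
    (kup : ∀ a b a' b' : ℝ, a ^ 2 + b ^ 2 = 1 → a' ^ 2 + b' ^ 2 = 1 →
      k1 * a ^ 2 + 2 * k2 * (a * b) + k3 * b ^ 2 <
      14 / 5 * (k1 * a' ^ 2 + 2 * k2 * (a' * b') + k3 * b' ^ 2) + 6 / 5 * ν ^ 2) :
    0 < lam ν (u + w) (4 * bb u v w) ∧
    0 < lamt ν (u + w) (4 * bb u v w) * ((k1 + k3) - (u + w) ^ 2 / 2 - 2 * bb u v w) +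
      lamq ν (u + w) (4 * bb u v w) *
        (8 * kb u v w k1 k2 k3 - 2 * (u + w) * (4 * bb u v w)) +
      lam ν (u + w) (4 * bb u v w) * (u + w) - 3 / 2 * lam ν (u + w) (4 * bb u v w) ^ 2 -
      6 * bb u v w := by
  set BU : ℝ := bb u v w with hBU
  set BK : ℝ := bb k1 k2 k3 with hBK
  have hBU0 : 0 ≤ BU := H791.bb_nonneg _ _ _
  have hBK0 : 0 ≤ BK := H791.bb_nonneg _ _ _
  set d : ℝ := 2 * Real.sqrt BU with hd
  set δ : ℝ := 2 * Real.sqrt BK with hδ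
  have hd0 : 0 ≤ d := by positivity
  have hδ0 : 0 ≤ δ := by positivity
  have hd2 : d ^ 2 = 4 * BU := by
    rw [hd, mul_pow, Real.sq_sqrt hBU0]; ring
  obtain ⟨a, b, hab, h1, h2⟩ := exists_eig u v w
  obtain ⟨a', b', hab', h3, h4⟩ := exists_eig k1 k2 k3
  have eU : Real.sqrt (((u - w) / 2) ^ 2 + v ^ 2) = d / 2 := by
    rw [hd, hBU]; unfold bb; ring
  have eK : Real.sqrt (((k1 - k3) / 2) ^ 2 + k2 ^ 2) = δ / 2 := by
    rw [hδ, hBK]; unfold bb; ring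
  rw [eU] at h1 h2
  rw [eK] at h3 h4
  have hba : b ^ 2 + (-a) ^ 2 = 1 := by linarith [neg_sq a]
  have hba' : b' ^ 2 + (-a') ^ 2 = 1 := by linarith [neg_sq a']
  have u1 := ulo b (-a)
  have u2 := uup a b b (-a) hab hba
  have c1 := klo b' (-a')
  have c2 := kup a' b' b' (-a') hab' hba'
  rw [h2, hba, mul_one] at u1
  rw [h1, h2] at u2
  rw [h4, hba', mul_one] at c1
  rw [h3, h4] at c2
  have hm : 8 * kb u v w k1 k2 k3 ≤ 2 * d * δ := by
    have h5 : kb u v w k1 k2 k3 ≤ Real.sqrt BU * Real.sqrt BK := by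
      rw [← Real.sqrt_mul hBU0]
      refine (le_abs_self _).trans (Real.abs_le_sqrt ?_)
      rw [hBU, hBK]
      unfold kb bb
      nlinarith [sq_nonneg ((u - w) / 2 * k2 - v * ((k1 - k3) / 2))]
    have h6 : 2 * d * δ = 8 * (Real.sqrt BU * Real.sqrt BK) := by rw [hd, hδ]; ring
    rw [h6]
    linarith
  have g1 : d + 2 * ν ≤ u + w := by linarith
  have g2 : 19 * d + 8 * ν < 9 * (u + w) := by linarith
  have p1 := lam_pos hν hd0 g1 g2
  have p2 := ineq145 (k := k1 + k3) (δ := δ) hν hd0 g1 g2 hδ0 (by linarith) (by linarith) hm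
  rw [hd2] at p1 p2
  refine ⟨p1, lt_of_lt_of_eq p2 ?_⟩
  ring

/-- the derivative of `lam ν t q` along a curve -/
theorem lam_hasDerivAt {ν t' q' r : ℝ} {t q : ℝ → ℝ} (ht : HasDerivAt t t' r)
    (hq : HasDerivAt q q' r) (h0 : t r ≠ 0) :
    HasDerivAt (fun r => lam ν (t r) (q r))
      (lamt ν (t r) (q r) * t' + lamq ν (t r) (q r) * q') r := by
  have a1 := ht.div_const 3
  have a2 := (hasDerivAt_const r (3 / 10 * ν ^ 2)).fun_div ht h0
  have a3 := (hq.const_mul (7 / 6)).fun_div ht h0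
  have a4 := (hq.const_mul (11 / 30 * ν)).fun_div (ht.fun_pow 2) (pow_ne_zero 2 h0)
  have a5 := ((hq.fun_pow 2).const_mul (3 / 5)).fun_div (ht.fun_pow 3) (pow_ne_zero 3 h0)
  have a6 := ((hq.fun_pow 3).const_mul (18 / 5)).fun_div (ht.fun_pow 5) (pow_ne_zero 5 h0)
  have a7 := (((((a1.add_const (17 / 30 * ν)).fun_sub a2).fun_sub a3).fun_sub a4).fun_sub
    a5).fun_sub a6
  refine a7.congr_deriv ?_
  unfold lamt lamq
  push_cast
  field_simp
  ring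

section Cont

variable {P : Type*} [TopologicalSpace P] {t q : P → ℝ}

theorem lam_cont (ν : ℝ) (ht : Continuous t) (hq : Continuous q) (h0 : ∀ p, t p ≠ 0) :
    Continuous fun p => lam ν (t p) (q p) := by
  unfold lam
  have h2 : ∀ n : ℕ, ∀ p, t p ^ n ≠ 0 := fun n p => pow_ne_zero n (h0 p)
  fun_prop (disch := first | exact h0 | exact h2 _)

theorem lamt_cont (ν : ℝ) (ht : Continuous t) (hq : Continuous q) (h0 : ∀ p, t p ≠ 0) :
    Continuous fun p => lamt ν (t p) (q p) := by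
  unfold lamt
  have h2 : ∀ n : ℕ, ∀ p, t p ^ n ≠ 0 := fun n p => pow_ne_zero n (h0 p)
  fun_prop (disch := first | exact h0 | exact h2 _)

theorem lamq_cont (ν : ℝ) (ht : Continuous t) (hq : Continuous q) (h0 : ∀ p, t p ≠ 0) :
    Continuous fun p => lamq ν (t p) (q p) := by
  unfold lamq
  have h2 : ∀ n : ℕ, ∀ p, t p ^ n ≠ 0 := fun n p => pow_ne_zero n (h0 p)
  fun_prop (disch := first | exact h0 | exact h2 _)

end Cont

/-- **The multiplier along the flow**, for a continuous solution of the Riccati equation. -/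
theorem exists_flow_mult145 {P : Type*} [TopologicalSpace P] [CompactSpace P]
    {φ : ℝ → P → P} {u v w k1 k2 k3 : C(P, ℝ)} (h : RicC φ u v w k1 k2 k3) {ν : ℝ}
    (hν : 0 < ν)
    (ulo : ∀ p (a b : ℝ), ν * (a ^ 2 + b ^ 2) ≤ u p * a ^ 2 + 2 * v p * (a * b) + w p * b ^ 2)
    (uup : ∀ p (a b a' b' : ℝ), a ^ 2 + b ^ 2 = 1 → a' ^ 2 + b' ^ 2 = 1 →
      u p * a ^ 2 + 2 * v p * (a * b) + w p * b ^ 2 <
      14 / 5 * (u p * a' ^ 2 + 2 * v p * (a' * b') + w p * b' ^ 2) - 4 / 5 * ν)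
    (klo : ∀ p (a b : ℝ), ν ^ 2 * (a ^ 2 + b ^ 2) ≤
      k1 p * a ^ 2 + 2 * k2 p * (a * b) + k3 p * b ^ 2)
    (kup : ∀ p (a b a' b' : ℝ), a ^ 2 + b ^ 2 = 1 → a' ^ 2 + b' ^ 2 = 1 →
      k1 p * a ^ 2 + 2 * k2 p * (a * b) + k3 p * b ^ 2 <
      14 / 5 * (k1 p * a' ^ 2 + 2 * k2 p * (a' * b') + k3 p * b' ^ 2) + 6 / 5 * ν ^ 2) :
    ∃ l l' : C(P, ℝ), (∀ p, 0 < l p) ∧
      (∀ p r, HasDerivAt (fun r => l (φ r p)) (l' (φ r p)) r) ∧
      ∀ p, 0 < l' p + l p * (u p + w p) - 3 / 2 * l p ^ 2 - 6 * bb (u p) (v p) (w p) := by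
  have key := fun p => point145 hν (ulo p) (uup p) (klo p) (kup p)
  have ht : ∀ p, u p + w p ≠ 0 := fun p => by
    have h1 := ulo p 1 0
    have h2 := ulo p 0 1
    norm_num at h1 h2
    have : 0 < u p + w p := by linarith
    exact this.ne'
  have ct : Continuous fun p => u p + w p := by fun_prop
  have cq : Continuous fun p => 4 * bb (u p) (v p) (w p) := by unfold bb; fun_prop
  have c1 := lam_cont ν ct cq ht
  have c2 := lamt_cont ν ct cq ht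
  have c3 := lamq_cont ν ct cq ht
  refine ⟨⟨_, c1⟩, ⟨fun p => lamt ν (u p + w p) (4 * bb (u p) (v p) (w p)) *
      ((k1 p + k3 p) - (u p + w p) ^ 2 / 2 - 2 * bb (u p) (v p) (w p)) +
      lamq ν (u p + w p) (4 * bb (u p) (v p) (w p)) *
        (8 * kb (u p) (v p) (w p) (k1 p) (k2 p) (k3 p) -
          2 * (u p + w p) * (4 * bb (u p) (v p) (w p))), ?_⟩, fun p => (key p).1,
    fun p r => ?_, fun p => (key p).2⟩
  · refine (c2.mul ?_).add (c3.mul ?_)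
    · unfold bb; fun_prop
    · unfold bb kb; fun_prop
  · have h1 := h.t p r
    have h2 := (h.b p r).const_mul 4
    refine (lam_hasDerivAt (ν := ν) h1 h2 (ht _)).congr_deriv ?_
    simp only [ContinuousMap.coe_mk]
    ring

variable {P : Type*} [TopologicalSpace P] [CompactSpace P] [MeasurableSpace P] [BorelSpace P]
  {m : Measure P} [IsFiniteMeasure m] {c : Cal (intL m)} {J : C(P, ℝ) →L[ℝ] ℝ}

/-- **The multiplier as a jet.** -/
theorem exists_multiplier145 {C : Curv c} (D : UData c C) {ν : ℝ} (hν : 0 < ν)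
    (ulo : ∀ x (a b : ℝ), ν * (a ^ 2 + b ^ 2) ≤ D.U 0 0 x * a ^ 2 + 2 * D.U 0 1 x * (a * b) +
      D.U 1 1 x * b ^ 2)
    (uup : ∀ x (a b a' b' : ℝ), a ^ 2 + b ^ 2 = 1 → a' ^ 2 + b' ^ 2 = 1 →
      D.U 0 0 x * a ^ 2 + 2 * D.U 0 1 x * (a * b) + D.U 1 1 x * b ^ 2 <
      14 / 5 * (D.U 0 0 x * a' ^ 2 + 2 * D.U 0 1 x * (a' * b') + D.U 1 1 x * b' ^ 2) - 4 / 5 * ν)
    (klo : ∀ x (a b : ℝ), ν ^ 2 * (a ^ 2 + b ^ 2) ≤
      C.K 0 0 x * a ^ 2 + 2 * C.K 0 1 x * (a * b) + C.K 1 1 x * b ^ 2)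
    (kup : ∀ x (a b a' b' : ℝ), a ^ 2 + b ^ 2 = 1 → a' ^ 2 + b' ^ 2 = 1 →
      C.K 0 0 x * a ^ 2 + 2 * C.K 0 1 x * (a * b) + C.K 1 1 x * b ^ 2 <
      14 / 5 * (C.K 0 0 x * a' ^ 2 + 2 * C.K 0 1 x * (a' * b') + C.K 1 1 x * b' ^ 2) +
        6 / 5 * ν ^ 2) :
    ∃ (l : C(P, ℝ)) (dl : Idx → C(P, ℝ)), Jet c l dl ∧ ∀ x, 0 < dl .X x +
      l x * (D.U 0 0 x + D.U 1 1 x) - 3 / 2 * l x ^ 2
      - 6 * (((D.U 0 0 x - D.U 1 1 x) / 2) ^ 2 + (D.U 0 1 x) ^ 2) := by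
  have ht : ∀ x, 0 < (D.U 0 0 + D.U 1 1) x := fun x => by
    have h1 := ulo x 1 0
    have h2 := ulo x 0 1
    rw [ContinuousMap.add_apply]
    nlinarith
  obtain ⟨g, hg, jg⟩ := exists_jet_inv ((D.jU 0 0).add (D.jU 1 1)) ht
  have jp := (D.jU 0 0).sub (D.jU 1 1)
  have jq := (jp.mul jp).add (jet_smul ((D.jU 0 1).mul (D.jU 0 1)) (4 : ℝ))
  have jqg := jq.mul jg
  have jg2 := jg.mul jg
  have jl1 := (jet_smul ((D.jU 0 0).add (D.jU 1 1)) (1 / 3 : ℝ)).add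
    (jet_smul (Jet.one c) (17 / 30 * ν))
  have jl2 := jl1.sub (jet_smul jg (3 / 10 * ν ^ 2))
  have jl3 := jl2.sub (jet_smul jqg (7 / 6 : ℝ))
  have jl4 := jl3.sub (jet_smul (jqg.mul jg) (11 / 30 * ν))
  have jl5 := jl4.sub (jet_smul ((jqg.mul jqg).mul jg) (3 / 5 : ℝ))
  have jl := jl5.sub (jet_smul ((jqg.mul jqg).mul (jqg.mul jg2)) (18 / 5 : ℝ))
  refine ⟨_, _, jl, fun x => ?_⟩
  have r00 := D.ric 0 0
  have r01 := D.ric 0 1
  have r11 := D.ric 1 1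
  simp only [Fin.sum_univ_two, D.symU] at r00 r01 r11
  have key := (point145 hν (ulo x) (uup x) (klo x) (kup x)).2
  have hgx := hg x
  have htx := (ht x).ne'
  rw [ContinuousMap.add_apply] at htx
  refine lt_of_lt_of_eq key ?_
  simp only [ContinuousMap.smul_apply, ContinuousMap.add_apply, ContinuousMap.sub_apply,
    ContinuousMap.mul_apply, ContinuousMap.neg_apply, ContinuousMap.pow_apply, smul_eq_mul,
    ContinuousMap.one_apply, ContinuousMap.zero_apply, smul_zero,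
    r00, r01, r11, hgx]
  unfold lam lamt lamq bb kb
  generalize D.U 0 0 x = u at *
  generalize D.U 0 1 x = v at *
  generalize D.U 1 1 x = w at *
  generalize C.K 0 0 x = k1 at *
  generalize C.K 0 1 x = k2 at *
  generalize C.K 1 1 x = k3 at *
  field_simp
  ring

end Vale.Agent.P207.Q.Rel
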