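import Vale.Agent.P207.Q.Ric2

/-!
# The Riccati equation on the past: derivatives of the iterates, variable weights
-/

open MeasureTheory Set Filter Topology

set_option linter.unusedSectionVars false
set_option linter.unusedVariables false

noncomputable section

namespace Vale.Agent.P207.Q.Rel

open Vale.Agent.P207.Q.Ric

variable {Θ : Type*} {A : Type*} [NormedRing A] [NormedAlgebra ℝ A] [CompleteSpace A]

/-- the integrand of the derivative equation, times `> 0` truncated -/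
def Gw (T : Θ → ℝ → A) (M : Θ → ℝ → A) (S : Θ → ℝ → A) (θ : Θ) (r : ℝ) : A :=
  M θ (min r 0) + (S θ r * T θ (min r 0) + T θ (min r 0) * S θ r)

/-- the iterates `S_k` on the past (constant for `s ≥ 0`) -/
def Sw (Λ : ℝ) (N M : Θ → ℝ → A) : ℕ → Θ → ℝ → A
  | 0 => fun _ _ => 0
  | k + 1 => fun θ s => L Λ (Gw (Tk Λ N k) M (Sw Λ N M k)) θ (min s 0)

theorem Sw_succ (Λ : ℝ) (N M : Θ → ℝ → A) (k : ℕ) (θ : Θ) (s : ℝ) :
    Sw Λ N M (k + 1) θ s = L Λ (Gw (Tk Λ N k) M (Sw Λ N M k)) θ (min s 0) := rfl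

/-- Hypotheses on the weight. -/
structure WH [TopologicalSpace Θ] (Λ Λ₁ Ω q Q : ℝ) (k₀ : ℕ) (N : Θ → ℝ → A) (ω : Θ → ℝ → ℝ) :
    Prop where
  q0 : 0 ≤ q
  q1 : q < 1
  Q0 : 0 ≤ Q
  Λ₁0 : 0 ≤ Λ₁
  Λ₁lt : Λ₁ < 2 * Λ
  ω1 : ∀ θ s, 1 ≤ ω θ s
  Ω0 : 0 ≤ Ω
  ωle : ∀ θ s, ω θ s ≤ Ω * Real.exp (Λ₁ * |s|)
  ωcont : Continuous (Function.uncurry ω)
  contr : ∀ k θ s, k₀ ≤ k → s ≤ 0 → ∫ u in Ioi (0 : ℝ),
    Real.exp (-(2 * Λ) * u) • (2 * ‖Tk Λ N k θ (s - u)‖ * ω θ (s - u)) ≤ q * ω θ s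
  unif : ∀ θ s, s ≤ 0 → ∫ u in Ioi (0 : ℝ), Real.exp (-(2 * Λ) * u) • ω θ (s - u) ≤ Q * ω θ s

/-- Hypotheses on `M`. -/
structure MH [TopologicalSpace Θ] (C : ℝ) (ω : Θ → ℝ → ℝ) (M : Θ → ℝ → A) : Prop where
  C0 : 0 ≤ C
  cont : Continuous (Function.uncurry M)
  bound : ∀ θ r, r ≤ 0 → ‖M θ r‖ ≤ C * ω θ r

variable [TopologicalSpace Θ] [FirstCountableTopology Θ] {lam Λ Λ₁ Ω q Q C : ℝ} {k₀ : ℕ}
  {N M : Θ → ℝ → A}
  {ω : Θ → ℝ → ℝ}

theorem WH.ωcont' (hW : WH Λ Λ₁ Ω q Q k₀ N ω) (θ : Θ) : Continuous (ω θ) :=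
  hW.ωcont.comp (continuous_const.prodMk continuous_id)

theorem WH.ω0 (hW : WH Λ Λ₁ Ω q Q k₀ N ω) (θ : Θ) (s : ℝ) : 0 < ω θ s :=
  zero_lt_one.trans_le (hW.ω1 θ s)

theorem WH.int1 (hW : WH Λ Λ₁ Ω q Q k₀ N ω) (θ : Θ) (s : ℝ) :
    IntegrableOn (fun u => Real.exp (-(2 * Λ) * u) • ω θ (s - u)) (Ioi (0 : ℝ)) :=
  integrand_int hW.Λ₁0 hW.Λ₁lt hW.Ω0 (hW.ωcont' θ) (fun r => by
    rw [Real.norm_eq_abs, abs_of_pos (hW.ω0 θ r)]
    exact hW.ωle θ r) s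

theorem WH.int2 (hW : WH Λ Λ₁ Ω q Q k₀ N ω) (hN : HypN lam Λ N) (k : ℕ) (θ : Θ) (s : ℝ) :
    IntegrableOn (fun u => Real.exp (-(2 * Λ) * u) •
      (2 * ‖Tk Λ N k θ (s - u)‖ * ω θ (s - u))) (Ioi (0 : ℝ)) := by
  have hle : 0 ≤ Λ - lam := sub_nonneg.2 hN.le
  refine integrand_int (G := fun r => 2 * ‖Tk Λ N k θ r‖ * ω θ r) hW.Λ₁0 hW.Λ₁lt
    (B := 2 * (Λ - lam) * Ω) (by have := hW.Ω0; positivity)
    ((continuous_const.mul (Tk_cont' hN k θ).norm).mul (hW.ωcont' θ)) (fun r => ?_) s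
  rw [Real.norm_eq_abs, abs_of_nonneg (by have := hW.ω0 θ r; positivity)]
  have h1 := Tk_le hN k θ r
  have h2 := hW.ωle θ r
  have h3 := hW.ω0 θ r
  rw [mul_assoc (2 * (Λ - lam)) Ω]
  gcongr

/-- the basic estimate -/
theorem norm_L_le_int {G : Θ → ℝ → A} {θ : Θ} {s : ℝ} {g : ℝ → ℝ} (hg : ∀ r, r ≤ s → ‖G θ r‖ ≤ g r)
    (hi : IntegrableOn (fun u => Real.exp (-(2 * Λ) * u) • g (s - u)) (Ioi (0 : ℝ))) :
    ‖L Λ G θ s‖ ≤ ∫ u in Ioi (0 : ℝ), Real.exp (-(2 * Λ) * u) • g (s - u) := by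
  unfold L
  refine norm_integral_le_of_norm_le hi ?_
  refine (ae_restrict_iff' measurableSet_Ioi).2 (Eventually.of_forall fun u hu => ?_)
  rw [norm_smul, Real.norm_eq_abs, Real.abs_exp, smul_eq_mul]
  have hu' : (0 : ℝ) < u := hu
  exact mul_le_mul_of_nonneg_left (hg _ (by linarith)) (Real.exp_pos _).le

/-- the estimate with the two parts -/
theorem L_bound (hW : WH Λ Λ₁ Ω q Q k₀ N ω) (hN : HypN lam Λ N) {G : Θ → ℝ → A} {θ : Θ} {s a b : ℝ}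
    (ha : 0 ≤ a) (hb : 0 ≤ b) (hs : s ≤ 0) (k : ℕ) (hk : k₀ ≤ k)
    (hg : ∀ r, r ≤ s → ‖G θ r‖ ≤ a * ω θ r + b * (2 * ‖Tk Λ N k θ r‖ * ω θ r)) :
    ‖L Λ G θ s‖ ≤ (a * Q + b * q) * ω θ s := by
  have i1 := (hW.int1 θ s).const_mul a
  have i2 := (hW.int2 hN k θ s).const_mul b
  have e : (fun u => Real.exp (-(2 * Λ) * u) •
      (a * ω θ (s - u) + b * (2 * ‖Tk Λ N k θ (s - u)‖ * ω θ (s - u)))) =
      fun u => a * (Real.exp (-(2 * Λ) * u) • ω θ (s - u)) +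
        b * (Real.exp (-(2 * Λ) * u) • (2 * ‖Tk Λ N k θ (s - u)‖ * ω θ (s - u))) := by
    funext u; simp only [smul_eq_mul]; ring
  have h := norm_L_le_int (Λ := Λ) (g := fun r => a * ω θ r + b * (2 * ‖Tk Λ N k θ r‖ * ω θ r)) hg
    (by
      rw [e]
      exact i1.add i2)
  simp only [e] at h
  rw [integral_add i1 i2, integral_const_mul, integral_const_mul] at h
  have h1 := mul_le_mul_of_nonneg_left (hW.unif θ s hs) ha
  have h2 := mul_le_mul_of_nonneg_left (hW.contr k θ s hk hs) hb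
  calc _ ≤ _ := h
    _ ≤ a * (Q * ω θ s) + b * (q * ω θ s) := add_le_add h1 h2
    _ = _ := by ring

/-- the estimate with the crude bound of `T_k` -/
theorem L_bound' (hW : WH Λ Λ₁ Ω q Q k₀ N ω) (hN : HypN lam Λ N) {G : Θ → ℝ → A} {θ : Θ}
    {s a b : ℝ} (ha : 0 ≤ a) (hb : 0 ≤ b) (hs : s ≤ 0) (k : ℕ)
    (hg : ∀ r, r ≤ s → ‖G θ r‖ ≤ a * ω θ r + b * (2 * ‖Tk Λ N k θ r‖ * ω θ r)) :
    ‖L Λ G θ s‖ ≤ (a * Q + b * (2 * (Λ - lam) * Q)) * ω θ s := by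
  have hle : 0 ≤ Λ - lam := sub_nonneg.2 hN.le
  have i1 := (hW.int1 θ s).const_mul (a + b * (2 * (Λ - lam)))
  have e : (fun u => Real.exp (-(2 * Λ) * u) • ((a + b * (2 * (Λ - lam))) * ω θ (s - u))) =
      fun u => (a + b * (2 * (Λ - lam))) * (Real.exp (-(2 * Λ) * u) • ω θ (s - u)) := by
    funext u; simp only [smul_eq_mul]; ring
  have h := norm_L_le_int (Λ := Λ) (g := fun r => (a + b * (2 * (Λ - lam))) * ω θ r)
    (G := G) (θ := θ) (s := s) (fun r hr => (hg r hr).trans (by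
      have h1 := Tk_le hN k θ r
      have h2 := hW.ω0 θ r
      have h3 : b * (2 * ‖Tk Λ N k θ r‖ * ω θ r) ≤ b * (2 * (Λ - lam) * ω θ r) := by gcongr
      linarith)) (by rw [e]; exact i1)
  simp only [e] at h
  rw [integral_const_mul] at h
  have h1 := mul_le_mul_of_nonneg_left (hW.unif θ s hs)
    (show 0 ≤ a + b * (2 * (Λ - lam)) by positivity)
  calc _ ≤ _ := h
    _ ≤ _ := h1
    _ = _ := by ring

/-- crude bounds of the first iterates -/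
def dw (lam Λ Q C : ℝ) : ℕ → ℝ
  | 0 => 0
  | k + 1 => dw lam Λ Q C k + (C * Q + dw lam Λ Q C k * (2 * (Λ - lam) * Q))

/-- the bound of the derivative -/
def Dw (lam Λ : ℝ) (k₀ : ℕ) (q Q C : ℝ) : ℝ := dw lam Λ Q C k₀ + C * Q / (1 - q)

theorem dw_nonneg (hN : HypN lam Λ N) (hW : WH Λ Λ₁ Ω q Q k₀ N ω) (hM : MH C ω M) (k : ℕ) :
    0 ≤ dw lam Λ Q C k := by
  have hle : 0 ≤ Λ - lam := sub_nonneg.2 hN.le
  have hQ := hW.Q0
  have hC := hM.C0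
  induction k with
  | zero => exact le_rfl
  | succ k ih => simp only [dw]; positivity

theorem dw_mono (hN : HypN lam Λ N) (hW : WH Λ Λ₁ Ω q Q k₀ N ω) (hM : MH C ω M) :
    Monotone (dw lam Λ Q C) := by
  have hle : 0 ≤ Λ - lam := sub_nonneg.2 hN.le
  have hQ := hW.Q0
  have hC := hM.C0
  refine monotone_nat_of_le_succ fun k => ?_
  have := dw_nonneg hN hW hM k
  simp only [dw]
  have : 0 ≤ C * Q + dw lam Λ Q C k * (2 * (Λ - lam) * Q) := by positivity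
  linarith

theorem Dw_nonneg (hN : HypN lam Λ N) (hW : WH Λ Λ₁ Ω q Q k₀ N ω) (hM : MH C ω M) :
    0 ≤ Dw lam Λ k₀ q Q C :=
  add_nonneg (dw_nonneg hN hW hM _)
    (div_nonneg (mul_nonneg hM.C0 hW.Q0) (by linarith [hW.q1]))

theorem dw_le (hN : HypN lam Λ N) (hW : WH Λ Λ₁ Ω q Q k₀ N ω) (hM : MH C ω M) {k : ℕ}
    (hk : k ≤ k₀) : dw lam Λ Q C k ≤ Dw lam Λ k₀ q Q C := by
  have h1 := dw_mono hN hW hM hk
  have h2 : 0 ≤ C * Q / (1 - q) := div_nonneg (mul_nonneg hM.C0 hW.Q0) (by linarith [hW.q1])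
  unfold Dw
  linarith

theorem Dw_eq (hN : HypN lam Λ N) (hW : WH Λ Λ₁ Ω q Q k₀ N ω) (hM : MH C ω M) :
    C * Q + Dw lam Λ k₀ q Q C * q ≤ Dw lam Λ k₀ q Q C := by
  have h1 : 0 < (1 - q) := by linarith [hW.q1]
  have h2 := dw_nonneg hN hW hM k₀
  have h3 : C * Q / (1 - q) * (1 - q) = C * Q := by field_simp
  have h4 := mul_nonneg h2 h1.le
  unfold Dw
  linarith

/-- the bound of the integrand -/
theorem Gw_bound (hW : WH Λ Λ₁ Ω q Q k₀ N ω) (hM : MH C ω M) {S : Θ → ℝ → A} {D : ℝ} (hD : 0 ≤ D)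
    (hS : ∀ θ s, ‖S θ s‖ ≤ D * ω θ (min s 0)) (k : ℕ) (θ : Θ) (r : ℝ) :
    ‖Gw (Tk Λ N k) M S θ r‖ ≤ C * ω θ (min r 0) +
      D * (2 * ‖Tk Λ N k θ (min r 0)‖ * ω θ (min r 0)) := by
  have h1 := hM.bound θ (min r 0) (min_le_right _ _)
  have h2 := hS θ r
  unfold Gw
  refine (norm_add_le _ _).trans (add_le_add h1 ?_)
  set t := Tk Λ N k θ (min r 0)
  calc ‖S θ r * t + t * S θ r‖ ≤ ‖S θ r‖ * ‖t‖ + ‖t‖ * ‖S θ r‖ :=
        (norm_add_le _ _).trans (add_le_add (norm_mul_le _ _) (norm_mul_le _ _))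
    _ ≤ (D * ω θ (min r 0)) * ‖t‖ + ‖t‖ * (D * ω θ (min r 0)) := by gcongr
    _ = _ := by ring

theorem ω_min_le (hW : WH Λ Λ₁ Ω q Q k₀ N ω) (θ : Θ) (r : ℝ) :
    ω θ (min r 0) ≤ Ω * Real.exp (Λ₁ * |r|) := by
  refine (hW.ωle θ _).trans (mul_le_mul_of_nonneg_left
    (Real.exp_le_exp.2 (mul_le_mul_of_nonneg_left ?_ hW.Λ₁0)) hW.Ω0)
  rcases le_total r 0 with h | h
  · rw [min_eq_left h]
  · rw [min_eq_right h, abs_zero]; exact abs_nonneg _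

/-- crude bound of the integrand -/
theorem Gw_crude (hW : WH Λ Λ₁ Ω q Q k₀ N ω) (hN : HypN lam Λ N) (hM : MH C ω M) {S : Θ → ℝ → A}
    {D : ℝ} (hD : 0 ≤ D) (hS : ∀ θ s, ‖S θ s‖ ≤ D * ω θ (min s 0)) (k : ℕ) (θ : Θ) (r : ℝ) :
    ‖Gw (Tk Λ N k) M S θ r‖ ≤ ((C + 2 * (Λ - lam) * D) * Ω) * Real.exp (Λ₁ * |r|) := by
  have hle : 0 ≤ Λ - lam := sub_nonneg.2 hN.le
  refine (Gw_bound hW hM hD hS k θ r).trans ?_
  have h1 := ω_min_le hW θ r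
  have h2 := Tk_le hN k θ (min r 0)
  have h3 := hW.ω0 θ (min r 0)
  have hC := hM.C0
  calc _ ≤ C * (Ω * Real.exp (Λ₁ * |r|)) + D * (2 * (Λ - lam) * (Ω * Real.exp (Λ₁ * |r|))) := by
        gcongr
    _ = _ := by ring

theorem continuous_min_snd : Continuous fun p : Θ × ℝ => (p.1, min p.2 0) :=
  continuous_fst.prodMk (continuous_snd.min continuous_const)

theorem Gw_cont (hN : HypN lam Λ N) (hM : MH C ω M) {S : Θ → ℝ → A}
    (hS : Continuous (Function.uncurry S)) (k : ℕ) :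
    Continuous (Function.uncurry (Gw (Tk Λ N k) M S)) := by
  have h1 : Continuous fun p : Θ × ℝ => M p.1 (min p.2 0) := hM.cont.comp continuous_min_snd
  have h2 : Continuous fun p : Θ × ℝ => Tk Λ N k p.1 (min p.2 0) :=
    (Tk_cont hN k).comp continuous_min_snd
  exact h1.add ((hS.mul h2).add (h2.mul hS))

theorem Sw_prop (hN : HypN lam Λ N) (hW : WH Λ Λ₁ Ω q Q k₀ N ω) (hM : MH C ω M) (k : ℕ) :
    Continuous (Function.uncurry (Sw Λ N M k)) ∧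
      (∀ θ s, ‖Sw Λ N M k θ s‖ ≤ Dw lam Λ k₀ q Q C * ω θ (min s 0)) ∧
      (k ≤ k₀ → ∀ θ s, ‖Sw Λ N M k θ s‖ ≤ dw lam Λ Q C k * ω θ (min s 0)) := by
  have hD := Dw_nonneg hN hW hM
  have hle : 0 ≤ Λ - lam := sub_nonneg.2 hN.le
  have hC := hM.C0
  have hΩ := hW.Ω0
  induction k with
  | zero =>
    refine ⟨continuous_const, fun θ s => ?_, fun _ θ s => ?_⟩
    · simp only [Sw, norm_zero]
      exact mul_nonneg hD (hW.ω0 _ _).le
    · simp only [Sw, norm_zero, dw, zero_mul, le_refl]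
  | succ k ih =>
    have h5 : k + 1 ≤ k₀ → ∀ θ s, ‖Sw Λ N M (k + 1) θ s‖ ≤
        dw lam Λ Q C (k + 1) * ω θ (min s 0) := by
      intro hk θ s
      rw [Sw_succ]
      have hd := dw_nonneg hN hW hM k
      have h2 := L_bound' hW hN (G := Gw (Tk Λ N k) M (Sw Λ N M k)) (θ := θ) (s := min s 0)
        hM.C0 hd (min_le_right _ _) k (fun r hr => by
          have h3 := Gw_bound hW hM hd (ih.2.2 (Nat.le_of_succ_le hk)) k θ r
          have h4 : min r 0 = r := min_eq_left (hr.trans (min_le_right _ _))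
          rwa [h4] at h3)
      refine h2.trans (mul_le_mul_of_nonneg_right ?_ (hW.ω0 _ _).le)
      simp only [dw]
      linarith
    refine ⟨?_, ?_, h5⟩
    · have h1 := continuous_L (Λ := Λ) hW.Λ₁0 hW.Λ₁lt
        (B := (C + 2 * (Λ - lam) * Dw lam Λ k₀ q Q C) * Ω)
        (by positivity) (Gw_cont hN hM ih.1 k) (Gw_crude hW hN hM hD ih.2.1 k)
      exact h1.comp continuous_min_snd
    · intro θ s
      rcases Nat.lt_or_ge k k₀ with hk | hk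
      · exact (h5 hk θ s).trans (mul_le_mul_of_nonneg_right (dw_le hN hW hM hk) (hW.ω0 _ _).le)
      · rw [Sw_succ]
        have h2 := L_bound hW hN (G := Gw (Tk Λ N k) M (Sw Λ N M k)) (θ := θ) (s := min s 0)
          hM.C0 hD (min_le_right _ _) k hk (fun r hr => by
            have h3 := Gw_bound hW hM hD ih.2.1 k θ r
            have h4 : min r 0 = r := min_eq_left (hr.trans (min_le_right _ _))
            rwa [h4] at h3)
        exact h2.trans (mul_le_mul_of_nonneg_right (Dw_eq hN hW hM) (hW.ω0 _ _).le)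

theorem Sw_cont (hN : HypN lam Λ N) (hW : WH Λ Λ₁ Ω q Q k₀ N ω) (hM : MH C ω M) (k : ℕ) :
    Continuous (Function.uncurry (Sw Λ N M k)) := (Sw_prop hN hW hM k).1

theorem Sw_cont' (hN : HypN lam Λ N) (hW : WH Λ Λ₁ Ω q Q k₀ N ω) (hM : MH C ω M) (k : ℕ) (θ : Θ) :
    Continuous (Sw Λ N M k θ) :=
  (Sw_cont hN hW hM k).comp (continuous_const.prodMk continuous_id)

theorem Sw_le (hN : HypN lam Λ N) (hW : WH Λ Λ₁ Ω q Q k₀ N ω) (hM : MH C ω M) (k : ℕ) (θ : Θ)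
    (s : ℝ) : ‖Sw Λ N M k θ s‖ ≤ Dw lam Λ k₀ q Q C * ω θ (min s 0) := (Sw_prop hN hW hM k).2.1 θ s

/-- a common rate -/
def rw' (lam Λ q : ℝ) : ℝ := (max q ((Λ - lam) / Λ) + 1) / 2

/-- the constant of the geometric bound -/
def bw (lam Λ : ℝ) (k₀ : ℕ) (q Q C : ℝ) : ℝ :=
  2 * Dw lam Λ k₀ q Q C / rw' lam Λ q ^ k₀ +
    2 * Dw lam Λ k₀ q Q C * (Λ - lam) * Q / (rw' lam Λ q - q)

theorem rw_lt_one (hN : HypN lam Λ N) (hW : WH Λ Λ₁ Ω q Q k₀ N ω) : rw' lam Λ q < 1 := by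
  have := max_lt hW.q1 (q_lt_one hN)
  unfold rw'
  linarith

theorem q_lt_rw (hN : HypN lam Λ N) (hW : WH Λ Λ₁ Ω q Q k₀ N ω) : q < rw' lam Λ q := by
  have h1 := max_lt hW.q1 (q_lt_one hN)
  have h2 := le_max_left q ((Λ - lam) / Λ)
  unfold rw'
  linarith

theorem p_lt_rw (hN : HypN lam Λ N) (hW : WH Λ Λ₁ Ω q Q k₀ N ω) : (Λ - lam) / Λ < rw' lam Λ q := by
  have h1 := max_lt hW.q1 (q_lt_one hN)
  have h2 := le_max_right q ((Λ - lam) / Λ)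
  unfold rw'
  linarith

theorem rw_pos (hN : HypN lam Λ N) (hW : WH Λ Λ₁ Ω q Q k₀ N ω) : 0 < rw' lam Λ q :=
  hW.q0.trans_lt (q_lt_rw hN hW)

theorem bw_nonneg (hN : HypN lam Λ N) (hW : WH Λ Λ₁ Ω q Q k₀ N ω) (hM : MH C ω M) :
    0 ≤ bw lam Λ k₀ q Q C := by
  have h1 := Dw_nonneg hN hW hM
  have h2 : 0 < rw' lam Λ q - q := sub_pos.2 (q_lt_rw hN hW)
  have h3 : 0 ≤ Λ - lam := sub_nonneg.2 hN.le
  have h4 := hW.Q0
  have h5 := rw_pos hN hW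
  unfold bw
  positivity

theorem bw_le (hN : HypN lam Λ N) (hW : WH Λ Λ₁ Ω q Q k₀ N ω) (hM : MH C ω M) {k : ℕ}
    (hk : k ≤ k₀) : 2 * Dw lam Λ k₀ q Q C ≤ bw lam Λ k₀ q Q C * rw' lam Λ q ^ k := by
  have h1 := Dw_nonneg hN hW hM
  have h2 : 0 < rw' lam Λ q - q := sub_pos.2 (q_lt_rw hN hW)
  have h3 : 0 ≤ Λ - lam := sub_nonneg.2 hN.le
  have h4 := hW.Q0
  have h5 := rw_pos hN hW
  have h6 : rw' lam Λ q ^ k₀ ≤ rw' lam Λ q ^ k :=
    pow_le_pow_of_le_one h5.le (rw_lt_one hN hW).le hk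
  have h7 : 0 ≤ 2 * Dw lam Λ k₀ q Q C * (Λ - lam) * Q / (rw' lam Λ q - q) := by positivity
  have h8 : 2 * Dw lam Λ k₀ q Q C / rw' lam Λ q ^ k₀ ≤ bw lam Λ k₀ q Q C := by
    unfold bw
    linarith
  have h9 : 0 < rw' lam Λ q ^ k₀ := pow_pos h5 _
  calc 2 * Dw lam Λ k₀ q Q C = 2 * Dw lam Λ k₀ q Q C / rw' lam Λ q ^ k₀ * rw' lam Λ q ^ k₀ := by
        field_simp
    _ ≤ bw lam Λ k₀ q Q C * rw' lam Λ q ^ k :=
        mul_le_mul h8 h6 h9.le (bw_nonneg hN hW hM)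

theorem L_sub' (hW : WH Λ Λ₁ Ω q Q k₀ N ω) {B B' : ℝ} (hB : 0 ≤ B) (hB' : 0 ≤ B')
    {G G' : Θ → ℝ → A} {θ : Θ} (hc : Continuous (G θ)) (hc' : Continuous (G' θ))
    (hG : ∀ r, ‖G θ r‖ ≤ B * Real.exp (Λ₁ * |r|))
    (hG' : ∀ r, ‖G' θ r‖ ≤ B' * Real.exp (Λ₁ * |r|)) (s : ℝ) :
    L Λ G θ s - L Λ G' θ s = L Λ (fun θ r => G θ r - G' θ r) θ s :=
  L_sub hW.Λ₁0 hW.Λ₁lt hB hB' hc hc' hG hG' s

theorem Sw_sub_le (hN : HypN lam Λ N) (hW : WH Λ Λ₁ Ω q Q k₀ N ω) (hM : MH C ω M) (k : ℕ) (θ : Θ)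
    (s : ℝ) : ‖Sw Λ N M (k + 1) θ s - Sw Λ N M k θ s‖
      ≤ bw lam Λ k₀ q Q C * rw' lam Λ q ^ k * ω θ (min s 0) := by
  have hle : 0 ≤ Λ - lam := sub_nonneg.2 hN.le
  have hD := Dw_nonneg hN hW hM
  have hr0 := rw_pos hN hW
  have hb0 := bw_nonneg hN hW hM
  have hqr : 0 < rw' lam Λ q - q := sub_pos.2 (q_lt_rw hN hW)
  have hpr := p_lt_rw hN hW
  have hC := hM.C0
  have hQ := hW.Q0
  have hΩ := hW.Ω0
  have hB : 0 ≤ (C + 2 * (Λ - lam) * Dw lam Λ k₀ q Q C) * Ω := by positivity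
  rcases Nat.le_or_ge k k₀ with hk | hk
  · have h1 := Sw_le hN hW hM (k + 1) θ s
    have h2 := Sw_le hN hW hM k θ s
    have h3 := mul_le_mul_of_nonneg_right (bw_le hN hW hM hk) (hW.ω0 θ (min s 0)).le
    have h4 := norm_sub_le (Sw Λ N M (k + 1) θ s) (Sw Λ N M k θ s)
    linarith
  induction k, hk using Nat.le_induction generalizing θ s with
  | base =>
    have h1 := Sw_le hN hW hM (k₀ + 1) θ s
    have h2 := Sw_le hN hW hM k₀ θ s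
    have h3 := mul_le_mul_of_nonneg_right (bw_le hN hW hM le_rfl) (hW.ω0 θ (min s 0)).le
    have h4 := norm_sub_le (Sw Λ N M (k₀ + 1) θ s) (Sw Λ N M k₀ θ s)
    linarith
  | succ k hk ih =>
    have e : Sw Λ N M (k + 1 + 1) θ s - Sw Λ N M (k + 1) θ s =
        L Λ (fun θ r => Gw (Tk Λ N (k + 1)) M (Sw Λ N M (k + 1)) θ r -
          Gw (Tk Λ N k) M (Sw Λ N M k) θ r) θ (min s 0) := by
      rw [Sw_succ, Sw_succ Λ N M k]
      exact L_sub' hW hB hB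
        ((Gw_cont hN hM (Sw_cont hN hW hM (k + 1)) (k + 1)).comp
          (continuous_const.prodMk continuous_id))
        ((Gw_cont hN hM (Sw_cont hN hW hM k) k).comp (continuous_const.prodMk continuous_id))
        (Gw_crude hW hN hM hD (Sw_le hN hW hM (k + 1)) (k + 1) θ)
        (Gw_crude hW hN hM hD (Sw_le hN hW hM k) k θ) _
    rw [e]
    have hb2 : ∀ r, r ≤ min s 0 → ‖Gw (Tk Λ N (k + 1)) M (Sw Λ N M (k + 1)) θ r -
          Gw (Tk Λ N k) M (Sw Λ N M k) θ r‖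
          ≤ (2 * Dw lam Λ k₀ q Q C * ((Λ - lam) * rw' lam Λ q ^ k)) * ω θ r +
            (bw lam Λ k₀ q Q C * rw' lam Λ q ^ k) * (2 * ‖Tk Λ N (k + 1) θ r‖ * ω θ r) := by
      intro r hr
      have hr0' : min r 0 = r := min_eq_left (hr.trans (min_le_right _ _))
      unfold Gw
      rw [hr0']
      have ihr := ih θ r
      have hSr := Sw_le hN hW hM k θ r
      rw [hr0'] at ihr hSr
      have hTT : ‖Tk Λ N (k + 1) θ r - Tk Λ N k θ r‖ ≤ (Λ - lam) * rw' lam Λ q ^ k := by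
        refine (Tk_sub_le hN k θ r).trans ?_
        have := q_nonneg hN
        gcongr
      set S' := Sw Λ N M (k + 1) θ r
      set S := Sw Λ N M k θ r
      set T' := Tk Λ N (k + 1) θ r
      set T := Tk Λ N k θ r
      have e1 : (M θ r + (S' * T' + T' * S')) - (M θ r + (S * T + T * S))
          = (S * (T' - T) + (T' - T) * S) + ((S' - S) * T' + T' * (S' - S)) := by noncomm_ring
      rw [e1]
      have hω := hW.ω0 θ r
      refine (norm_add_le _ _).trans (add_le_add ?_ ?_)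
      · calc ‖S * (T' - T) + (T' - T) * S‖ ≤ ‖S‖ * ‖T' - T‖ + ‖T' - T‖ * ‖S‖ :=
              (norm_add_le _ _).trans (add_le_add (norm_mul_le _ _) (norm_mul_le _ _))
          _ ≤ Dw lam Λ k₀ q Q C * ω θ r * ((Λ - lam) * rw' lam Λ q ^ k)
              + ((Λ - lam) * rw' lam Λ q ^ k) * (Dw lam Λ k₀ q Q C * ω θ r) := by gcongr
          _ = _ := by ring
      · calc ‖(S' - S) * T' + T' * (S' - S)‖ ≤ ‖S' - S‖ * ‖T'‖ + ‖T'‖ * ‖S' - S‖ :=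
              (norm_add_le _ _).trans (add_le_add (norm_mul_le _ _) (norm_mul_le _ _))
          _ ≤ (bw lam Λ k₀ q Q C * rw' lam Λ q ^ k * ω θ r) * ‖T'‖
              + ‖T'‖ * (bw lam Λ k₀ q Q C * rw' lam Λ q ^ k * ω θ r) := by gcongr
          _ = _ := by ring
    refine (L_bound hW hN (by positivity) (by positivity) (min_le_right _ _) (k + 1)
      (Nat.le_succ_of_le hk) hb2).trans ?_
    refine mul_le_mul_of_nonneg_right ?_ (hW.ω0 _ _).le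
    rw [pow_succ]
    have key : 2 * Dw lam Λ k₀ q Q C * (Λ - lam) * Q + bw lam Λ k₀ q Q C * q
        ≤ bw lam Λ k₀ q Q C * rw' lam Λ q := by
      have h5 : 2 * Dw lam Λ k₀ q Q C * (Λ - lam) * Q
          ≤ bw lam Λ k₀ q Q C * (rw' lam Λ q - q) := by
        rw [← div_le_iff₀ hqr]
        have : 0 ≤ 2 * Dw lam Λ k₀ q Q C / rw' lam Λ q ^ k₀ := by positivity
        unfold bw
        linarith
      linarith
    calc 2 * Dw lam Λ k₀ q Q C * ((Λ - lam) * rw' lam Λ q ^ k) * Q +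
          bw lam Λ k₀ q Q C * rw' lam Λ q ^ k * q
        = (2 * Dw lam Λ k₀ q Q C * (Λ - lam) * Q + bw lam Λ k₀ q Q C * q) * rw' lam Λ q ^ k := by
          ring
      _ ≤ bw lam Λ k₀ q Q C * rw' lam Λ q * rw' lam Λ q ^ k := by gcongr
      _ = _ := by ring

/-- the limit of the derivatives -/
def Sl (Λ : ℝ) (N M : Θ → ℝ → A) (θ : Θ) (s : ℝ) : A := limUnder atTop fun k => Sw Λ N M k θ s

theorem Sw_tendsto (hN : HypN lam Λ N) (hW : WH Λ Λ₁ Ω q Q k₀ N ω) (hM : MH C ω M) (θ : Θ) (s : ℝ) :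
    Tendsto (fun k => Sw Λ N M k θ s) atTop (𝓝 (Sl Λ N M θ s)) := by
  refine CauchySeq.tendsto_limUnder ?_
  refine cauchySeq_of_le_geometric _ (bw lam Λ k₀ q Q C * ω θ (min s 0)) (rw_lt_one hN hW)
    fun k => ?_
  rw [dist_comm, dist_eq_norm]
  refine (Sw_sub_le hN hW hM k θ s).trans (le_of_eq ?_)
  ring

theorem Sw_dist_le (hN : HypN lam Λ N) (hW : WH Λ Λ₁ Ω q Q k₀ N ω) (hM : MH C ω M) (k : ℕ) (θ : Θ)
    (s : ℝ) : dist (Sw Λ N M k θ s) (Sl Λ N M θ s)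
      ≤ bw lam Λ k₀ q Q C * ω θ (min s 0) * rw' lam Λ q ^ k / (1 - rw' lam Λ q) :=
  dist_le_of_le_geometric_of_tendsto _ _ (rw_lt_one hN hW) (fun k => by
    rw [dist_comm, dist_eq_norm]
    refine (Sw_sub_le hN hW hM k θ s).trans (le_of_eq ?_)
    ring) (Sw_tendsto hN hW hM θ s) k

theorem Sw_unif (hN : HypN lam Λ N) (hW : WH Λ Λ₁ Ω q Q k₀ N ω) (hM : MH C ω M) (s : ℝ) :
    TendstoUniformly (fun k θ => Sw Λ N M k θ s) (fun θ => Sl Λ N M θ s) atTop := by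
  rw [Metric.tendstoUniformly_iff]
  intro ε hε
  have hr0 := rw_pos hN hW
  have hr1 := rw_lt_one hN hW
  have hb0 := bw_nonneg hN hW hM
  have h1 : Tendsto (fun k : ℕ => bw lam Λ k₀ q Q C * (Ω * Real.exp (Λ₁ * |s|)) *
      rw' lam Λ q ^ k / (1 - rw' lam Λ q)) atTop
      (𝓝 (bw lam Λ k₀ q Q C * (Ω * Real.exp (Λ₁ * |s|)) * 0 / (1 - rw' lam Λ q))) :=
    ((tendsto_pow_atTop_nhds_zero_of_lt_one hr0.le hr1).const_mul _).div_const _
  rw [mul_zero, zero_div] at h1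
  filter_upwards [h1.eventually_lt_const hε] with k hk θ
  rw [dist_comm]
  refine (Sw_dist_le hN hW hM k θ s).trans_lt (lt_of_le_of_lt ?_ hk)
  have h2 : 0 < 1 - rw' lam Λ q := by linarith
  have h3 := ω_min_le hW θ s
  gcongr

theorem Sl_cont (hN : HypN lam Λ N) (hW : WH Λ Λ₁ Ω q Q k₀ N ω) (hM : MH C ω M) (s : ℝ) :
    Continuous fun θ => Sl Λ N M θ s :=
  (Sw_unif hN hW hM s).continuous (Frequently.of_forall fun k =>
    (Sw_cont hN hW hM k).comp (continuous_id.prodMk continuous_const))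

end Vale.Agent.P207.Q.Rel
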