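import Vale.Agent.P207.Q.Rel.RW
import Vale.Agent.P207.Q.H183.JU3

/-!
# P207, relative pinching: jets of the Riccati iterates, variable weights
-/

open MeasureTheory Filter Topology Set
open scoped Matrix.Norms.L2Operator RealInnerProductSpace

set_option linter.unusedSectionVars false
set_option linter.unusedVariables false

noncomputable section

namespace Vale.Agent.P207.Q.Rel

open Vale.Agent.P207.Q.H413 Vale.Agent.P207.Q.Ric Vale.Agent.P207.Q.H183

section Alg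

variable {Θ : Type*} [TopologicalSpace Θ] [FirstCountableTopology Θ] {N M : Θ → ℝ → M2}
  {lam Λ Λ₁ Ω q Q C : ℝ} {k₀ : ℕ} {ω : Θ → ℝ → ℝ}

theorem clm_Sw (hN : HypN lam Λ N) (hW : WH Λ Λ₁ Ω q Q k₀ N ω) (hM : MH C ω M) {B : Type*}
    [NormedRing B] [NormedAlgebra ℝ B] [CompleteSpace B] (l : M2 →L[ℝ] B) (k : ℕ) (θ : Θ)
    (s : ℝ) : l (Sw Λ N M (k + 1) θ s) =
      L Λ (fun θ r => l (Gw (Tk Λ N k) M (Sw Λ N M k) θ r)) θ (min s 0) := by
  have hle : 0 ≤ Λ - lam := sub_nonneg.2 hN.le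
  have hD := Dw_nonneg hN hW hM
  have hC := hM.C0
  have hΩ := hW.Ω0
  rw [Sw_succ]
  exact clm_L (G := Gw (Tk Λ N k) M (Sw Λ N M k)) l hW.Λ₁0 hW.Λ₁lt
    (Bd := (C + 2 * (Λ - lam) * Dw lam Λ k₀ q Q C) * Ω) (by positivity)
    ((Gw_cont hN hM (Sw_cont hN hW hM k) k).comp (continuous_const.prodMk continuous_id))
    (Gw_crude hW hN hM hD (Sw_le hN hW hM k) k θ) _

theorem Sw_symm (hN : HypN lam Λ N) (hW : WH Λ Λ₁ Ω q Q k₀ N ω) (hM : MH C ω M)
    (hs : ∀ θ r, N θ r 1 0 = N θ r 0 1) (hs' : ∀ θ r, M θ r 1 0 = M θ r 0 1) (k : ℕ) :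
    ∀ θ s, Sw Λ N M k θ s 1 0 = Sw Λ N M k θ s 0 1 := by
  induction k with
  | zero => intro θ s; simp [Sw]
  | succ k ih =>
    intro θ s
    have h1 := clm_Sw hN hW hM (ent 1 0) k θ s
    have h2 := clm_Sw hN hW hM (ent 0 1) k θ s
    simp only [ent_apply] at h1 h2
    rw [h1, h2]
    congr 1
    funext θ r
    simp only [Gw, Matrix.add_apply, Matrix.mul_apply, Fin.sum_univ_two, hs', ih,
      Tk_symm hN hs k]
    ring

theorem L_congr {A : Type*} [NormedRing A] [NormedAlgebra ℝ A] [CompleteSpace A]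
    {G G' : Θ → ℝ → A} {θ : Θ} {s : ℝ} (h : ∀ r, r ≤ s → G θ r = G' θ r) :
    L Λ G θ s = L Λ G' θ s := by
  unfold L
  refine setIntegral_congr_fun measurableSet_Ioi fun u hu => ?_
  have hu' : (0 : ℝ) < u := hu
  rw [h _ (by linarith)]

theorem Sw_rot (hN : HypN lam Λ N) (hW : WH Λ Λ₁ Ω q Q k₀ N ω) (hM : MH C ω M)
    (hR : ∀ θ r, M θ r = adJ (N θ r)) (k : ℕ) :
    ∀ θ s, Sw Λ N M k θ s = adJ (Tk Λ N k θ (min s 0)) := by
  induction k with
  | zero => intro θ s; simp [Sw, Tk]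
  | succ k ih =>
    intro θ s
    have h1 := clm_Sw hN hW hM (ContinuousLinearMap.id ℝ M2) k θ s
    have h2 := clm_Tk hN adJ k θ (min s 0)
    simp only [ContinuousLinearMap.id_apply] at h1
    rw [h1, h2]
    refine L_congr fun r hr => ?_
    have hr0 : min r 0 = r := min_eq_left (hr.trans (min_le_right _ _))
    simp only [Gw]
    rw [ih, hR, hr0, adJ_apply, adJ_apply, adJ_apply]
    noncomm_ring

theorem Sl_symm (hN : HypN lam Λ N) (hW : WH Λ Λ₁ Ω q Q k₀ N ω) (hM : MH C ω M)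
    (hs : ∀ θ r, N θ r 1 0 = N θ r 0 1) (hs' : ∀ θ r, M θ r 1 0 = M θ r 0 1) (θ : Θ) (s : ℝ) :
    Sl Λ N M θ s 1 0 = Sl Λ N M θ s 0 1 := by
  have h1 := ((ent 1 0).continuous.tendsto _).comp (Sw_tendsto hN hW hM θ s)
  have h2 := ((ent 0 1).continuous.tendsto _).comp (Sw_tendsto hN hW hM θ s)
  exact tendsto_nhds_unique h1 (h2.congr fun k => (Sw_symm hN hW hM hs hs' k θ s).symm)

theorem Sl_rot (hN : HypN lam Λ N) (hW : WH Λ Λ₁ Ω q Q k₀ N ω) (hM : MH C ω M)
    (hR : ∀ θ r, M θ r = adJ (N θ r)) (θ : Θ) : Sl Λ N M θ 0 = adJ (Ric.T Λ N θ 0) := by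
  have h1 := (adJ.continuous.tendsto _).comp (Tk_tendsto hN θ 0)
  refine tendsto_nhds_unique (Sw_tendsto hN hW hM θ 0) (h1.congr fun k => ?_)
  simp only [Function.comp]
  rw [Sw_rot hN hW hM hR k θ 0, min_self]

end Alg

section Jets

variable {P : Type*} [TopologicalSpace P] [CompactSpace P] [MeasurableSpace P] [BorelSpace P]
  {m : Measure P} [IsFiniteMeasure m] {c : Cal (intL m)}

/-- jets are stable under `L`, on the past -/
theorem jet_Lm {Λ κ B : ℝ} (hκ : 0 ≤ κ) (h : κ < 2 * Λ) (hB : 0 ≤ B) {G : P → ℝ → ℝ}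
    {D : Idx → P → ℝ → ℝ} (hG : Continuous (Function.uncurry G))
    (hGb : ∀ p r, |G p r| ≤ B * Real.exp (κ * |r|))
    (hD : ∀ k, Continuous (Function.uncurry (D k)))
    (hDb : ∀ k p r, |D k p r| ≤ B * Real.exp (κ * |r|))
    (hj : ∀ r, r ≤ 0 → Jet c (cm G hG r) (fun k => cm (D k) (hD k) r))
    {s : ℝ} (hs : s ≤ 0) {T : C(P, ℝ)} {S : Idx → C(P, ℝ)} (hT : ∀ p, T p = L Λ G p s)
    (hS : ∀ k p, S k p = L Λ (D k) p s) : Jet c T S := by
  have hb : ∀ r, 0 ≤ B * Real.exp (κ * |r|) := fun r => by positivity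
  have hmin : ∀ r : ℝ, |min r 0| ≤ |r| := by
    intro r
    rcases le_total r 0 with h | h
    · rw [min_eq_left h]
    · rw [min_eq_right h, abs_zero]; exact abs_nonneg _
  have hexp : ∀ r, B * Real.exp (κ * |min r 0|) ≤ B * Real.exp (κ * |r|) := fun r =>
    mul_le_mul_of_nonneg_left (Real.exp_le_exp.2 (mul_le_mul_of_nonneg_left (hmin r) hκ)) hB
  have i1 : IntegrableOn (fun u => Real.exp (-(2 * Λ) * u) • cm G hG (min (s - u) 0))
      (Ioi (0 : ℝ)) :=
    integrand_int (G := fun r => cm G hG (min r 0)) hκ h hB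
      ((cm_cont G hG).comp (continuous_id.min continuous_const))
      (fun r => (cm_norm hG (hb _) (fun p => hGb p _)).trans (hexp r)) s
  have i2 : ∀ k, IntegrableOn (fun u => Real.exp (-(2 * Λ) * u) •
      cm (D k) (hD k) (min (s - u) 0)) (Ioi (0 : ℝ)) := fun k =>
    integrand_int (G := fun r => cm (D k) (hD k) (min r 0)) hκ h hB
      ((cm_cont (D k) (hD k)).comp (continuous_id.min continuous_const))
      (fun r => (cm_norm (hD k) (hb _) (fun p => hDb k p _)).trans (hexp r)) s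
  have hJ := jet_integral (c := c) (μ := volume.restrict (Ioi (0 : ℝ)))
    (F := fun u => Real.exp (-(2 * Λ) * u) • cm G hG (min (s - u) 0))
    (D := fun u k => Real.exp (-(2 * Λ) * u) • cm (D k) (hD k) (min (s - u) 0))
    (fun u => jet_smul (hj _ (min_le_right _ _)) _) i1 i2
  have hcong : ∀ (G : P → ℝ → ℝ) (p : P), ∫ u in Ioi (0 : ℝ),
      Real.exp (-(2 * Λ) * u) • G p (min (s - u) 0) = L Λ G p s := by
    intro G p
    unfold L
    refine setIntegral_congr_fun measurableSet_Ioi fun u hu => ?_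
    have hu' : (0 : ℝ) < u := hu
    rw [min_eq_left (by linarith : s - u ≤ 0)]
  refine hJ.congr ?_ fun k => ?_
  · ext p
    have := (ContinuousMap.evalCLM ℝ p).integral_comp_comm i1
    rw [hT, ← hcong]
    simpa using this.symm
  · ext p
    have := (ContinuousMap.evalCLM ℝ p).integral_comp_comm (i2 k)
    rw [hS, ← hcong]
    simpa using this.symm

variable [FirstCountableTopology P] {F : FlowS c} {K : Fin 2 → Fin 2 → c.S}
  {lam Λ Λ₁ Ω q Q C : ℝ} {k₀ : ℕ} {ω : P → ℝ → ℝ}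

/-- the jet of `N` -/
theorem jet_N' (hN : HypN lam Λ (NK F K Λ)) (hMc : ∀ k, Continuous (Function.uncurry (MK F K k)))
    (i j : Fin 2) (r : ℝ) :
    Jet c (cm (fun p r => NK F K Λ p r i j) (cont_ent hN.cont i j) r)
      (fun k => cm (fun p r => MK F K k p r i j) (cont_ent (hMc k) i j) r) := by
  have h := Jet.of_mem (c := c) (algebraMap ℝ c.S (if i = j then Λ ^ 2 else 0) - F.pull r (K i j))
  refine h.congr ?_ fun k => ?_
  · ext p
    simp [F.pull_apply]
  · ext p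
    simp

/-- The iterates are jets. -/
theorem jet_Sw (hN : HypN lam Λ (NK F K Λ)) (hW : WH Λ Λ₁ Ω q Q k₀ (NK F K Λ) ω)
    (hM : ∀ k, MH C ω (MK F K k)) (n : ℕ) :
    ∀ (i j : Fin 2) (s : ℝ), s ≤ 0 →
      Jet c (cm (fun p r => Tk Λ (NK F K Λ) n p r i j) (cont_ent (Tk_cont hN n) i j) s)
        (fun k => cm (fun p r => Sw Λ (NK F K Λ) (MK F K k) n p r i j)
          (cont_ent (Sw_cont hN hW (hM k) n) i j) s) := by
  induction n with
  | zero =>
    intro i j s _
    refine (jet_zero c).congr ?_ fun k => ?_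
    · ext p; simp [Tk]
    · ext p; simp [Sw]
  | succ n ih =>
    intro i j s hs
    have hle : 0 ≤ Λ - lam := sub_nonneg.2 hN.le
    have hDw := Dw_nonneg hN hW (hM .X)
    have hΩ := hW.Ω0
    have hC := (hM .X).C0
    have hG := cont_ent (Tk_G hN n) i j
    have hD := fun k => cont_ent (Gw_cont hN (hM k) (Sw_cont hN hW (hM k) n) n) i j
    set B : ℝ := ‖ent i j‖ * ((Λ ^ 2 - lam ^ 2) + (Λ - lam) * (Λ - lam)) +
      ‖ent i j‖ * ((C + 2 * (Λ - lam) * Dw lam Λ k₀ q Q C) * Ω) with hB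
    have hB1 : 0 ≤ ‖ent i j‖ * ((Λ ^ 2 - lam ^ 2) + (Λ - lam) * (Λ - lam)) :=
      mul_nonneg (ContinuousLinearMap.opNorm_nonneg _) (Tk_B0 hN)
    have hB2 : 0 ≤ ‖ent i j‖ * ((C + 2 * (Λ - lam) * Dw lam Λ k₀ q Q C) * Ω) :=
      mul_nonneg (ContinuousLinearMap.opNorm_nonneg _) (by positivity)
    have hGb : ∀ p r, |(NK F K Λ p r + Tk Λ (NK F K Λ) n p r * Tk Λ (NK F K Λ) n p r) i j| ≤
        B * Real.exp (Λ₁ * |r|) := by
      intro p r
      refine (ent_le i j (Tk_bd hN n p r)).trans ?_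
      rw [zero_mul, Real.exp_zero, mul_one]
      have h1 : (1 : ℝ) ≤ Real.exp (Λ₁ * |r|) :=
        Real.one_le_exp (mul_nonneg hW.Λ₁0 (abs_nonneg _))
      calc _ ≤ B := by rw [hB]; linarith
        _ ≤ B * Real.exp (Λ₁ * |r|) := le_mul_of_one_le_right (by positivity) h1
    have hDb : ∀ k p r, |(Gw (Tk Λ (NK F K Λ) n) (MK F K k)
        (Sw Λ (NK F K Λ) (MK F K k) n) p r) i j| ≤ B * Real.exp (Λ₁ * |r|) := by
      intro k p r
      refine (ent_le i j (Gw_crude hW hN (hM k) hDw (Sw_le hN hW (hM k) n) n p r)).trans ?_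
      rw [← mul_assoc]
      refine mul_le_mul_of_nonneg_right ?_ (Real.exp_pos _).le
      rw [hB]; linarith
    refine jet_Lm (c := c) (Λ := Λ) hW.Λ₁0 hW.Λ₁lt (B := B) (by positivity) hG hGb hD hDb
      (fun r hr => ?_) hs (fun p => ?_) (fun k p => ?_)
    · -- the integrand is a jet
      have hj := (jet_N' hN (fun k => (hM k).cont) i j r).add
        (((ih i 0 r hr).mul (ih 0 j r hr)).add ((ih i 1 r hr).mul (ih 1 j r hr)))
      refine hj.congr ?_ fun k => ?_
      · ext p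
        simp only [ContinuousMap.add_apply, ContinuousMap.mul_apply, cm_apply, Matrix.add_apply,
          Matrix.mul_apply, Fin.sum_univ_two]
      · ext p
        simp only [Gw, ContinuousMap.add_apply, ContinuousMap.mul_apply, cm_apply,
          Matrix.add_apply, Matrix.mul_apply, Fin.sum_univ_two, min_eq_left hr]
        ring
    · have := clm_Tk hN (ent i j) n p s
      simpa only [ent_apply, cm_apply] using this
    · have := clm_Sw hN hW (hM k) (ent i j) n p s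
      rw [min_eq_left hs] at this
      simpa only [ent_apply, cm_apply] using this

/-- **The solution `T` is a jet.** -/
theorem jet_T' (hN : HypN lam Λ (NK F K Λ)) (hW : WH Λ Λ₁ Ω q Q k₀ (NK F K Λ) ω)
    (hM : ∀ k, MH C ω (MK F K k)) (i j : Fin 2) {T : C(P, ℝ)} {S : Idx → C(P, ℝ)}
    (hT : ∀ p, T p = Ric.T Λ (NK F K Λ) p 0 i j)
    (hS : ∀ k p, S k p = Sl Λ (NK F K Λ) (MK F K k) p 0 i j) : Jet c T S := by
  refine jet_of_tendsto (fun n => jet_Sw hN hW hM n i j 0 le_rfl) ?_ fun k => ?_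
  · rw [ContinuousMap.tendsto_iff_tendstoUniformly, Metric.tendstoUniformly_iff]
    intro ε hε
    have h1 : Tendsto (fun n : ℕ => ‖ent i j‖ * ((Λ - lam) * ((Λ - lam) / Λ) ^ n /
        (1 - (Λ - lam) / Λ))) atTop
        (𝓝 (‖ent i j‖ * ((Λ - lam) * 0 / (1 - (Λ - lam) / Λ)))) :=
      ((((tendsto_pow_atTop_nhds_zero_of_lt_one (q_nonneg hN) (q_lt_one hN)).const_mul
        _).div_const _)).const_mul _
    rw [mul_zero, zero_div, mul_zero] at h1
    filter_upwards [h1.eventually_lt_const hε] with n hn p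
    have h2 := Tk_dist_le hN n p 0
    rw [dist_comm] at h2
    rw [dist_eq_norm] at h2 ⊢
    rw [hT, cm_apply]
    exact (ent_le i j h2).trans_lt hn
  · rw [ContinuousMap.tendsto_iff_tendstoUniformly, Metric.tendstoUniformly_iff]
    intro ε hε
    have hr0 := rw_pos hN hW
    have hr1 := rw_lt_one hN hW
    have hb0 := bw_nonneg hN hW (hM k)
    have h1 : Tendsto (fun n : ℕ => ‖ent i j‖ * (bw lam Λ k₀ q Q C * (Ω * Real.exp (Λ₁ * |(0 : ℝ)|)) *
        rw' lam Λ q ^ n / (1 - rw' lam Λ q))) atTop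
        (𝓝 (‖ent i j‖ * (bw lam Λ k₀ q Q C * (Ω * Real.exp (Λ₁ * |(0 : ℝ)|)) * 0 /
          (1 - rw' lam Λ q)))) :=
      ((((tendsto_pow_atTop_nhds_zero_of_lt_one hr0.le hr1).const_mul
        _).div_const _)).const_mul _
    rw [mul_zero, zero_div, mul_zero] at h1
    filter_upwards [h1.eventually_lt_const hε] with n hn p
    have h2 := Sw_dist_le hN hW (hM k) n p 0
    rw [dist_comm] at h2
    rw [dist_eq_norm] at h2 ⊢
    rw [hS, cm_apply]
    refine lt_of_le_of_lt (ent_le i j (h2.trans ?_)) hn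
    have h3 := ω_min_le hW p 0
    have h4 : 0 < 1 - rw' lam Λ q := by linarith
    gcongr

end Jets

end Vale.Agent.P207.Q.Rel
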